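import Vale.Agent.P295.L.Fib

/-!
# P295: corollaries for stable coordinates which are linear in a group of variables
-/

namespace Vale.Agent.P295.L

open MvPolynomial

theorem stable_of_equiv {σ : Type} {g : MvPolynomial σ ℂ}
    (e : MvPolynomial σ ℂ ≃ₐ[ℂ] MvPolynomial σ ℂ) (h : IsStableCoordinate g) :
    IsStableCoordinate (e g) := by
  obtain ⟨m, hm, φ, i, hφ⟩ := h
  refine ⟨m, hm, (extEquiv Sum.inl Sum.inl_injective e).symm.trans φ, i, ?_⟩
  rw [AlgEquiv.trans_apply, ← extEquiv_rename Sum.inl Sum.inl_injective e,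
    AlgEquiv.symm_apply_apply, hφ]

variable {σ : Type} [Fintype σ] (Z : Finset σ) (a : σ → MvPolynomial σ ℂ)
    (b : MvPolynomial σ ℂ) (ha : ∀ j ∈ Z, Disjoint (a j).vars Z) (hb : Disjoint b.vars Z)
    (hs : IsStableCoordinate (∑ j ∈ Z, a j * X j + b))

include ha hb hs

theorem coord_of_fib_empty (c : ℂ) (hc : Fib Z a b c = ∅) :
    IsCoordinate (∑ j ∈ Z, a j * X j + b) := by
  classical
  apply mainL Z a b ha hb c _ hs
  intro v hv hbv
  have h1 : (fun i => if i ∈ Z then 0 else v i) ∈ Fib Z a b c := by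
    refine ⟨fun j hj => by simp [hj], fun j hj => ?_, ?_⟩
    · rw [← hv j hj]
      apply eval_congr_vars
      intro i hi
      have : i ∉ Z := fun h => Finset.disjoint_left.mp (ha j hj) hi h
      simp [this]
    · rw [← hbv]
      apply eval_congr_vars
      intro i hi
      have : i ∉ Z := fun h => Finset.disjoint_left.mp hb hi h
      simp [this]
  rw [hc] at h1
  exact h1

theorem coord_of_finite
    (hfin : {v : σ → ℂ | (∀ j ∈ Z, v j = 0) ∧ ∀ j ∈ Z, eval v (a j) = 0}.Finite) :
    IsCoordinate (∑ j ∈ Z, a j * X j + b) := by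
  obtain ⟨c, hc⟩ := (Set.Finite.infinite_compl (hfin.image (fun v => eval v b))).nonempty
  apply coord_of_fib_empty Z a b ha hb hs c
  ext v
  simp only [Set.mem_empty_iff_false, iff_false]
  rintro ⟨h1, h2, h3⟩
  exact hc ⟨v, ⟨h1, h2⟩, h3⟩

theorem coord_of_one (h1 : ∀ i ∉ Z, ∀ j ∉ Z, i = j) :
    IsCoordinate (∑ j ∈ Z, a j * X j + b) := by
  classical
  by_cases hex : ∃ c, Fib Z a b c = ∅
  · obtain ⟨c, hc⟩ := hex
    exact coord_of_fib_empty Z a b ha hb hs c hc
  push Not at hex
  have hne : Nonempty σ := by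
    by_contra hne
    rw [not_nonempty_iff] at hne
    obtain ⟨u, hu⟩ := hs.unimodular
    simp at hu
  obtain ⟨i0, hi0⟩ : ∃ i0, ∀ i ∉ Z, i = i0 := by
    by_cases h : ∃ i, i ∉ Z
    · obtain ⟨i, hi⟩ := h
      exact ⟨i, fun j hj => h1 j hj i hi⟩
    · push Not at h
      exact ⟨hne.some, fun i hi => absurd (h i) hi⟩
  -- univariate polynomials
  have hev : ∀ (p : MvPolynomial σ ℂ) (v : σ → ℂ), (∀ i ∈ p.vars, i ∉ Z) →
      eval v p = (aeval (fun _ : σ => (Polynomial.X : Polynomial ℂ)) p).eval (v i0) := by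
    intro p v hp
    have h2 : eval v p = eval (fun _ => v i0) p := by
      apply eval_congr_vars
      intro i hi
      rw [hi0 i (hp i hi)]
    rw [h2]
    have h3 : (Polynomial.aeval (R := ℂ) (v i0)).comp
        (aeval (fun _ : σ => (Polynomial.X : Polynomial ℂ))) =
        (aeval (fun _ : σ => v i0) : MvPolynomial σ ℂ →ₐ[ℂ] ℂ) := by
      apply MvPolynomial.algHom_ext
      intro i
      simp
    have h4 := DFunLike.congr_fun h3 p
    rw [AlgHom.comp_apply, Polynomial.coe_aeval_eq_eval, aeval_eq_eval] at h4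
    exact h4.symm
  have hz : ∀ p : MvPolynomial σ ℂ, (∀ i ∈ p.vars, i ∉ Z) →
      aeval (fun _ : σ => (Polynomial.X : Polynomial ℂ)) p = 0 → p = 0 := by
    intro p hp h0
    have h2 : aeval (fun i : σ => (X i : MvPolynomial σ ℂ)) p =
        aeval (fun _ : σ => (X i0 : MvPolynomial σ ℂ)) p := by
      apply aeval_congr_vars
      intro i hi
      rw [hi0 i (hp i hi)]
    have h3 : (Polynomial.aeval (R := ℂ) (X i0 : MvPolynomial σ ℂ)).comp
        (aeval (fun _ : σ => (Polynomial.X : Polynomial ℂ))) =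
        (aeval (fun _ : σ => (X i0 : MvPolynomial σ ℂ))) := by
      apply MvPolynomial.algHom_ext
      intro i
      simp
    have h4 := DFunLike.congr_fun h3 p
    rw [AlgHom.comp_apply, h0, map_zero, ← h2, aeval_X_left_apply] at h4
    exact h4.symm
  choose v hv using hex
  have hinj : Function.Injective (fun c => v c i0) := by
    intro c c' hcc
    simp only at hcc
    have h2 : v c = v c' := by
      funext i
      by_cases hi : i ∈ Z
      · rw [(hv c).1 i hi, (hv c').1 i hi]
      · rw [hi0 i hi, hcc]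
    rw [← (hv c).2.2, ← (hv c').2.2, h2]
  have ha0 : ∀ j ∈ Z, a j = 0 := by
    intro j hj
    have hvars : ∀ i ∈ (a j).vars, i ∉ Z := fun i hi => Finset.disjoint_left.mp (ha j hj) hi
    apply hz _ hvars
    apply Polynomial.eq_zero_of_infinite_isRoot
    apply (Set.infinite_range_of_injective hinj).mono
    rintro _ ⟨c, rfl⟩
    change Polynomial.eval _ _ = 0
    rw [← hev _ _ hvars]
    exact (hv c).2.1 j hj
  have hf : ∑ j ∈ Z, a j * X j + b = b := by
    rw [Finset.sum_eq_zero (fun j hj => by rw [ha0 j hj, zero_mul]), zero_add]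
  rw [hf] at hs ⊢
  have hvars : b.vars ⊆ {i0} := by
    intro i hi
    rw [Finset.mem_singleton]
    exact hi0 i (fun h => Finset.disjoint_left.mp hb hi h)
  exact isCoordinate_of_blocks (fun _ : Unit => b) (by simp) (fun k l h => absurd rfl h)
    (fun _ => good_of_univariate hvars) hs.unimodular

end Vale.Agent.P295.L
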