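import Mathlib

namespace Vale.Agent.P295.L

/-- [C] Count.lean -/
theorem count {σ F : Type} [Fintype σ] [Field F] [Finite F] (Z : Finset σ)
    (a : σ → (σ → F) → F) (b : (σ → F) → F)
    (ha : ∀ j v w, (∀ i ∉ Z, v i = w i) → a j v = a j w)
    (hb : ∀ v w, (∀ i ∉ Z, v i = w i) → b v = b w) (c : F)
    (hc : ∀ v, (∀ j ∈ Z, a j v = 0) → b v ≠ c)
    (h : Nat.card {v : σ → F // ∑ j ∈ Z, a j v * v j + b v = c} * Nat.card F =
      Nat.card F ^ Fintype.card σ) : ∀ v, ∃ j ∈ Z, a j v ≠ 0 := by
  classical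
  intro v0
  by_contra hv0
  -- the restriction to the variables outside `Z`
  set r : (σ → F) → (σ → F) := fun v i => if i ∈ Z then 0 else v i with hr
  have hrv : ∀ v j, a j (r v) = a j v := fun v j => ha j _ _ fun i hi => by simp [hr, hi]
  have hU : ∀ v : {v : σ → F // ∑ j ∈ Z, a j v * v j + b v = c}, ∃ j ∈ Z, a j (r v) ≠ 0 := by
    rintro ⟨v, hv⟩
    by_contra hcon
    push Not at hcon
    have h0 : ∀ j ∈ Z, a j v = 0 := fun j hj => by rw [← hrv v j]; exact hcon j hj
    apply hc v h0
    rw [← hv, Finset.sum_eq_zero (fun j hj => by rw [h0 j hj, zero_mul]), zero_add]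
  let G : (w : σ → F) → (∃ j ∈ Z, a j w ≠ 0) → σ := fun w h => h.choose
  have hG1 : ∀ w h, G w h ∈ Z := fun w h => h.choose_spec.1
  have hG2 : ∀ w h, a (G w h) w ≠ 0 := fun w h => h.choose_spec.2
  have hGeq : ∀ w w' h h', w = w' → G w h = G w' h' := by
    intro w w' h h' e
    subst e
    rfl
  have hoff : ∀ (v : σ → F) (j : σ) (t : F), j ∈ Z → ∀ i ∉ Z, Function.update v j t i = v i := by
    intro v j t hj i hi
    rw [Function.update_of_ne]
    rintro rfl
    exact hi hj
  let φ : {v : σ → F // ∑ j ∈ Z, a j v * v j + b v = c} × F → {v : σ → F // ∃ j ∈ Z, a j v ≠ 0} :=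
    fun p => ⟨Function.update p.1.1 (G (r p.1.1) (hU p.1)) p.2,
      G (r p.1.1) (hU p.1), hG1 _ _, by
        rw [ha _ _ (r p.1.1)]
        · exact hG2 _ _
        · intro i hi
          rw [hoff _ _ _ (hG1 _ _) i hi]
          simp [hr, hi]⟩
  have hφ : Function.Injective φ := by
    rintro ⟨⟨v, hv⟩, t⟩ ⟨⟨v', hv'⟩, t'⟩ he
    have he1 : Function.update v (G (r v) (hU ⟨v, hv⟩)) t =
        Function.update v' (G (r v') (hU ⟨v', hv'⟩)) t' := congrArg Subtype.val he
    have hout : ∀ i ∉ Z, v i = v' i := by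
      intro i hi
      have := congrFun he1 i
      rwa [hoff _ _ _ (hG1 _ _) i hi, hoff _ _ _ (hG1 _ _) i hi] at this
    have hrr : r v = r v' := by
      funext i
      by_cases hi : i ∈ Z
      · simp [hr, hi]
      · simp [hr, hi, hout i hi]
    have hj : G (r v) (hU ⟨v, hv⟩) = G (r v') (hU ⟨v', hv'⟩) := hGeq _ _ _ _ hrr
    set j := G (r v) (hU ⟨v, hv⟩) with hjdef
    rw [← hj] at he1
    have hjZ : j ∈ Z := hG1 _ _
    have haj : a j v ≠ 0 := by
      rw [← hrv v j]
      exact hG2 (r v) (hU ⟨v, hv⟩)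
    have htt : t = t' := by
      have := congrFun he1 j
      simpa using this
    have hne : ∀ i, i ≠ j → v i = v' i := by
      intro i hi
      have := congrFun he1 i
      rwa [Function.update_of_ne hi, Function.update_of_ne hi] at this
    have hvv : v j = v' j := by
      have h1 : ∑ i ∈ Z, a i v * v i + b v = ∑ i ∈ Z, a i v' * v' i + b v' := hv.trans hv'.symm
      rw [hb v v' hout] at h1
      have h2 := add_right_cancel h1
      rw [← Finset.add_sum_erase Z _ hjZ, ← Finset.add_sum_erase Z (fun i => a i v' * v' i) hjZ]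
        at h2
      have h3 : ∑ i ∈ Z.erase j, a i v * v i = ∑ i ∈ Z.erase j, a i v' * v' i := by
        refine Finset.sum_congr rfl fun i hi => ?_
        rw [ha i v v' hout, hne i (Finset.ne_of_mem_erase hi)]
      rw [h3] at h2
      have h4 := add_right_cancel h2
      rw [← ha j v v' hout] at h4
      exact mul_left_cancel₀ haj h4
    have hvv' : v = v' := by
      funext i
      by_cases hi : i = j
      · rw [hi]; exact hvv
      · exact hne i hi
    subst hvv'
    subst htt
    rfl
  have h1 := Nat.card_le_card_of_injective φ hφ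
  rw [Nat.card_prod, h] at h1
  have h2 : Nat.card {v : σ → F // ∃ j ∈ Z, a j v ≠ 0} < Nat.card (σ → F) :=
    Finite.card_subtype_lt hv0
  rw [Nat.card_fun, Nat.card_eq_fintype_card (α := σ)] at h2
  omega

end Vale.Agent.P295.L
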