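import Mathlib

namespace Vale.Agent.P295.L

namespace Count2

variable {σ F : Type} [Fintype σ] [Field F] [Finite F]

theorem le (Z : Finset σ) (a : σ → (σ → F) → F) (b : (σ → F) → F)
    (ha : ∀ j v w, (∀ i ∉ Z, v i = w i) → a j v = a j w)
    (hb : ∀ v w, (∀ i ∉ Z, v i = w i) → b v = b w) (c c' : F) :
    Nat.card {v : σ → F // (∑ j ∈ Z, a j v * v j + b v = c) ∧ ∃ j ∈ Z, a j v ≠ 0} ≤
      Nat.card {v : σ → F // (∑ j ∈ Z, a j v * v j + b v = c') ∧ ∃ j ∈ Z, a j v ≠ 0} := by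
  classical
  set r : (σ → F) → (σ → F) := fun v i => if i ∈ Z then 0 else v i with hr
  have hrv : ∀ v j, a j (r v) = a j v := fun v j => ha j _ _ fun i hi => by simp [hr, hi]
  have hU : ∀ v : {v : σ → F // (∑ j ∈ Z, a j v * v j + b v = c) ∧ ∃ j ∈ Z, a j v ≠ 0},
      ∃ j ∈ Z, a j (r v) ≠ 0 := by
    rintro ⟨v, hv, j, hj, h⟩
    exact ⟨j, hj, by rw [hrv]; exact h⟩
  let G : (w : σ → F) → (∃ j ∈ Z, a j w ≠ 0) → σ := fun w h => h.choose
  have hG1 : ∀ w h, G w h ∈ Z := fun w h => h.choose_spec.1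
  have hG2 : ∀ w h, a (G w h) w ≠ 0 := fun w h => h.choose_spec.2
  have hGeq : ∀ w w' h h', w = w' → G w h = G w' h' := by
    intro w w' h h' e
    subst e
    rfl
  have hoff : ∀ (v : σ → F) (j : σ) (t : F), j ∈ Z → ∀ i ∉ Z, Function.update v j t i = v i := by
    intro v j t hj i hi
    rw [Function.update_of_ne]
    rintro rfl
    exact hi hj
  have hf : ∀ (v : σ → F) (j : σ), j ∈ Z → a j v ≠ 0 → ∑ i ∈ Z, a i v * v i + b v = c →
      ∑ i ∈ Z, a i (Function.update v j (v j + (c' - c) / a j v)) *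
        (Function.update v j (v j + (c' - c) / a j v)) i +
        b (Function.update v j (v j + (c' - c) / a j v)) = c' := by
    intro v j hj h0 hv
    have h1 : ∀ i, a i (Function.update v j (v j + (c' - c) / a j v)) = a i v :=
      fun i => ha i _ _ (hoff v j _ hj)
    rw [hb _ v (hoff v j _ hj)]
    simp_rw [h1]
    rw [← Finset.add_sum_erase Z _ hj, Function.update_self]
    rw [← Finset.add_sum_erase Z _ hj] at hv
    have h3 : ∑ i ∈ Z.erase j, a i v * Function.update v j (v j + (c' - c) / a j v) i =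
        ∑ i ∈ Z.erase j, a i v * v i := by
      refine Finset.sum_congr rfl fun i hi => ?_
      rw [Function.update_of_ne (Finset.ne_of_mem_erase hi)]
    rw [h3, mul_add, mul_div_cancel₀ _ h0]
    linear_combination hv
  let φ : {v : σ → F // (∑ j ∈ Z, a j v * v j + b v = c) ∧ ∃ j ∈ Z, a j v ≠ 0} →
      {v : σ → F // (∑ j ∈ Z, a j v * v j + b v = c') ∧ ∃ j ∈ Z, a j v ≠ 0} :=
    fun v => ⟨Function.update v.1 (G (r v.1) (hU v))
        (v.1 (G (r v.1) (hU v)) + (c' - c) / a (G (r v.1) (hU v)) v.1),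
      hf v.1 _ (hG1 _ _) (by rw [← hrv]; exact hG2 _ _) v.2.1,
      G (r v.1) (hU v), hG1 _ _, by
        rw [ha _ _ v.1 (hoff _ _ _ (hG1 _ _)), ← hrv]
        exact hG2 _ _⟩
  refine Nat.card_le_card_of_injective φ ?_
  rintro ⟨v, hv⟩ ⟨v', hv'⟩ he
  have he1 : Function.update v (G (r v) (hU ⟨v, hv⟩))
      (v (G (r v) (hU ⟨v, hv⟩)) + (c' - c) / a (G (r v) (hU ⟨v, hv⟩)) v) =
      Function.update v' (G (r v') (hU ⟨v', hv'⟩))
      (v' (G (r v') (hU ⟨v', hv'⟩)) + (c' - c) / a (G (r v') (hU ⟨v', hv'⟩)) v') :=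
    congrArg Subtype.val he
  have hout : ∀ i ∉ Z, v i = v' i := by
    intro i hi
    have := congrFun he1 i
    rwa [hoff _ _ _ (hG1 _ _) i hi, hoff _ _ _ (hG1 _ _) i hi] at this
  have hrr : r v = r v' := by
    funext i
    by_cases hi : i ∈ Z
    · simp [hr, hi]
    · simp [hr, hi, hout i hi]
  have hj : G (r v) (hU ⟨v, hv⟩) = G (r v') (hU ⟨v', hv'⟩) := hGeq _ _ _ _ hrr
  rw [← hj] at he1
  generalize G (r v) (hU ⟨v, hv⟩) = j at he1
  have hne : ∀ i, i ≠ j → v i = v' i := by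
    intro i hi
    have := congrFun he1 i
    rwa [Function.update_of_ne hi, Function.update_of_ne hi] at this
  have hvv : v j = v' j := by
    have := congrFun he1 j
    rw [Function.update_self, Function.update_self, ha j v v' hout] at this
    exact add_right_cancel this
  have hvv' : v = v' := by
    funext i
    by_cases hi : i = j
    · rw [hi]; exact hvv
    · exact hne i hi
  subst hvv'
  rfl

omit [Fintype σ] [Finite F] in
theorem fib (Z : Finset σ) (a : σ → (σ → F) → F) (b : (σ → F) → F)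
    (ha : ∀ j v w, (∀ i ∉ Z, v i = w i) → a j v = a j w)
    (hb : ∀ v w, (∀ i ∉ Z, v i = w i) → b v = b w) (c : F) :
    Nat.card {v : σ → F // (∀ j ∈ Z, a j v = 0) ∧ b v = c} =
      Nat.card {v : σ → F // (∀ j ∈ Z, v j = 0) ∧ (∀ j ∈ Z, a j v = 0) ∧ b v = c} *
        Nat.card (Z → F) := by
  classical
  rw [← Nat.card_prod]
  refine Nat.card_congr
    { toFun := fun v => (⟨fun i => if i ∈ Z then 0 else v.1 i, ?_, ?_, ?_⟩, fun z => v.1 z)
      invFun := fun p => ⟨fun i => if h : i ∈ Z then p.2 ⟨i, h⟩ else p.1.1 i, ?_, ?_⟩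
      left_inv := ?_
      right_inv := ?_ }
  · intro j hj
    simp [hj]
  · intro j hj
    rw [ha j _ v.1 (fun i hi => by simp [hi])]
    exact v.2.1 j hj
  · rw [hb _ v.1 (fun i hi => by simp [hi])]
    exact v.2.2
  · intro j hj
    rw [ha j _ p.1.1 (fun i hi => by simp [hi])]
    exact p.1.2.2.1 j hj
  · rw [hb _ p.1.1 (fun i hi => by simp [hi])]
    exact p.1.2.2.2
  · rintro ⟨v, hv⟩
    apply Subtype.ext
    funext i
    by_cases hi : i ∈ Z
    · simp [hi]
    · simp [hi]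
  · rintro ⟨⟨w, hw⟩, g⟩
    refine Prod.ext (Subtype.ext ?_) ?_
    · funext i
      by_cases hi : i ∈ Z
      · simp [hi, hw.1 i hi]
      · simp [hi]
    · funext z
      simp

theorem split (P Q : (σ → F) → Prop) : Nat.card {v : σ → F // P v} =
    Nat.card {v : σ → F // P v ∧ Q v} + Nat.card {v : σ → F // P v ∧ ¬ Q v} := by
  classical
  have := Fintype.ofFinite F
  have h : ∀ R : (σ → F) → Prop, Nat.card {v : σ → F // R v} = (Finset.univ.filter R).card := by
    intro R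
    rw [Nat.card_eq_fintype_card, Fintype.card_subtype]
  have h2 := Finset.card_filter_add_card_filter_not (s := Finset.univ.filter P) Q
  rw [Finset.filter_filter, Finset.filter_filter] at h2
  rw [h P, h (fun v => P v ∧ Q v), h (fun v => P v ∧ ¬ Q v), ← h2]
  congr 1 <;> congr 1 <;> ext v <;> simp

end Count2

/-- [C2] Count2.lean -/
theorem count2 {σ F : Type} [Fintype σ] [Field F] [Finite F] (Z : Finset σ)
    (a : σ → (σ → F) → F) (b : (σ → F) → F)
    (ha : ∀ j v w, (∀ i ∉ Z, v i = w i) → a j v = a j w)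
    (hb : ∀ v w, (∀ i ∉ Z, v i = w i) → b v = b w) (c₁ c₂ : F)
    (h₁ : Nat.card {v : σ → F // ∑ j ∈ Z, a j v * v j + b v = c₁} * Nat.card F =
      Nat.card F ^ Fintype.card σ)
    (h₂ : Nat.card {v : σ → F // ∑ j ∈ Z, a j v * v j + b v = c₂} * Nat.card F =
      Nat.card F ^ Fintype.card σ) :
    Nat.card {v : σ → F // (∀ j ∈ Z, v j = 0) ∧ (∀ j ∈ Z, a j v = 0) ∧ b v = c₁} =
      Nat.card {v : σ → F // (∀ j ∈ Z, v j = 0) ∧ (∀ j ∈ Z, a j v = 0) ∧ b v = c₂} := by
  classical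
  have hq : 0 < Nat.card F := Nat.card_pos
  have hN : Nat.card {v : σ → F // ∑ j ∈ Z, a j v * v j + b v = c₁} =
      Nat.card {v : σ → F // ∑ j ∈ Z, a j v * v j + b v = c₂} :=
    Nat.eq_of_mul_eq_mul_right hq (h₁.trans h₂.symm)
  rw [Count2.split _ (fun v => ∃ j ∈ Z, a j v ≠ 0),
    Count2.split (fun v => ∑ j ∈ Z, a j v * v j + b v = c₂) (fun v => ∃ j ∈ Z, a j v ≠ 0),
    le_antisymm (Count2.le Z a b ha hb c₁ c₂) (Count2.le Z a b ha hb c₂ c₁)] at hN
  have hN' := Nat.add_left_cancel hN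
  have hB : ∀ c : F, Nat.card {v : σ → F // (∑ j ∈ Z, a j v * v j + b v = c) ∧
      ¬ ∃ j ∈ Z, a j v ≠ 0} = Nat.card {v : σ → F // (∀ j ∈ Z, a j v = 0) ∧ b v = c} := by
    intro c
    refine Nat.card_congr (Equiv.subtypeEquivRight fun v => ?_)
    constructor
    · rintro ⟨h1, h2⟩
      push Not at h2
      refine ⟨h2, ?_⟩
      rw [← h1, Finset.sum_eq_zero (fun j hj => by rw [h2 j hj, zero_mul]), zero_add]
    · rintro ⟨h1, h2⟩
      refine ⟨?_, ?_⟩
      · rw [Finset.sum_eq_zero (fun j hj => by rw [h1 j hj, zero_mul]), zero_add, h2]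
      · push Not
        exact h1
  rw [hB, hB, Count2.fib Z a b ha hb, Count2.fib Z a b ha hb] at hN'
  exact Nat.eq_of_mul_eq_mul_right Nat.card_pos hN'

end Vale.Agent.P295.L
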