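import Vale.Agent.P295.Defs

/-!
# A stable coordinate takes every value equally often over finite fields
-/

namespace Vale.Agent.P295.L

open MvPolynomial

namespace Equi

theorem card_fiber {τ F : Type} [Fintype τ] [Finite F] (i : τ) (c : F) :
    Nat.card {v : τ → F // v i = c} * Nat.card F = Nat.card F ^ Fintype.card τ := by
  classical
  rw [← Nat.card_prod, ← Nat.card_eq_fintype_card (α := τ), ← Nat.card_fun]
  refine Nat.card_congr
    { toFun := fun p => Function.update p.1.1 i p.2
      invFun := fun v => (⟨Function.update v i c, by simp⟩, v i)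
      left_inv := ?_
      right_inv := ?_ }
  · rintro ⟨⟨v, hv⟩, x⟩
    subst hv
    simp
  · intro v
    simp

theorem card_split {σ F : Type} [Finite F] [Finite σ] (m : ℕ) (P : (σ → F) → Prop) :
    Nat.card {w : σ ⊕ Fin m → F // P (w ∘ Sum.inl)} =
      Nat.card {v : σ → F // P v} * Nat.card F ^ m := by
  have h : Nat.card F ^ m = Nat.card (Fin m → F) := by
    rw [Nat.card_fun, Nat.card_eq_fintype_card (α := Fin m), Fintype.card_fin]
  rw [h, ← Nat.card_prod]
  refine Nat.card_congr
    { toFun := fun w => (⟨w.1 ∘ Sum.inl, w.2⟩, w.1 ∘ Sum.inr)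
      invFun := fun p => ⟨Sum.elim p.1.1 p.2, by simpa using p.1.2⟩
      left_inv := ?_
      right_inv := ?_ }
  · rintro ⟨w, hw⟩
    simp
  · rintro ⟨⟨v, hv⟩, x⟩
    simp

end Equi

/-- [E] Equi.lean -/
theorem equi {σ : Type} [Fintype σ] (f : MvPolynomial σ ℂ) (hf : IsStableCoordinate f) :
    ∃ T : Finset ℂ, ∀ (S : Subring ℂ), (T : Set ℂ) ⊆ S → ∀ (F : Type) [Field F] [Finite F]
      (π : S →+* F) (g : MvPolynomial σ S), MvPolynomial.map S.subtype g = f → ∀ c : F,
      Nat.card {v : σ → F // eval₂ π v g = c} * Nat.card F = Nat.card F ^ Fintype.card σ := by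
  classical
  obtain ⟨m, hm, e, i, hi⟩ := hf
  let E : σ ⊕ Fin m → MvPolynomial (σ ⊕ Fin m) ℂ := fun j => e (X j)
  let D : σ ⊕ Fin m → MvPolynomial (σ ⊕ Fin m) ℂ := fun j => e.symm (X j)
  have hE : ∀ p, bind₁ E p = e p := by
    intro p
    have : (bind₁ E) = (e : MvPolynomial (σ ⊕ Fin m) ℂ →ₐ[ℂ] MvPolynomial (σ ⊕ Fin m) ℂ) := by
      apply MvPolynomial.algHom_ext
      intro j
      simp [E]
    rw [this]
    rfl
  have hD : ∀ p, bind₁ D p = e.symm p := by
    intro p
    have : (bind₁ D) =
        (e.symm : MvPolynomial (σ ⊕ Fin m) ℂ →ₐ[ℂ] MvPolynomial (σ ⊕ Fin m) ℂ) := by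
      apply MvPolynomial.algHom_ext
      intro j
      simp [D]
    rw [this]
    rfl
  refine ⟨Finset.univ.biUnion fun j => (E j).coeffs ∪ (D j).coeffs, ?_⟩
  intro S hT F _ _ π g hg c
  have hlE : ∀ j, ∃ p : MvPolynomial (σ ⊕ Fin m) S, map S.subtype p = E j := by
    intro j
    refine mem_range_map_iff_coeffs_subset.2 ?_
    intro x hx
    have : x ∈ (S : Set ℂ) := hT (by
      rw [Finset.mem_coe, Finset.mem_biUnion]
      exact ⟨j, Finset.mem_univ _, Finset.mem_union_left _ (Finset.mem_coe.1 hx)⟩)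
    exact ⟨⟨x, this⟩, rfl⟩
  have hlD : ∀ j, ∃ p : MvPolynomial (σ ⊕ Fin m) S, map S.subtype p = D j := by
    intro j
    refine mem_range_map_iff_coeffs_subset.2 ?_
    intro x hx
    have : x ∈ (S : Set ℂ) := hT (by
      rw [Finset.mem_coe, Finset.mem_biUnion]
      exact ⟨j, Finset.mem_univ _, Finset.mem_union_right _ (Finset.mem_coe.1 hx)⟩)
    exact ⟨⟨x, this⟩, rfl⟩
  choose E' hE' using hlE
  choose D' hD' using hlD
  have hinj : Function.Injective (map S.subtype :
      MvPolynomial (σ ⊕ Fin m) S → MvPolynomial (σ ⊕ Fin m) ℂ) :=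
    map_injective _ S.subtype_injective
  have h1 : ∀ j, bind₁ D' (E' j) = X j := by
    intro j
    apply hinj
    rw [map_bind₁, hE' j, map_X]
    simp only [hD']
    change bind₁ D (E j) = X j
    rw [hD]
    exact e.symm_apply_apply _
  have h2 : ∀ j, bind₁ E' (D' j) = X j := by
    intro j
    apply hinj
    rw [map_bind₁, hD' j, map_X]
    simp only [hE']
    change bind₁ E (D j) = X j
    rw [hE]
    exact e.apply_symm_apply _
  have h3 : bind₁ E' (rename Sum.inl g) = X i := by
    apply hinj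
    rw [map_bind₁, map_X, map_rename, hg]
    simp only [hE']
    change bind₁ E (rename Sum.inl f) = X i
    rw [hE, hi]
  -- the point maps
  let A : (σ ⊕ Fin m → F) → (σ ⊕ Fin m → F) := fun v j => eval₂Hom π v (E' j)
  let B : (σ ⊕ Fin m → F) → (σ ⊕ Fin m → F) := fun v j => eval₂Hom π v (D' j)
  have hAB : ∀ v, A (B v) = v := by
    intro v
    funext j
    have := eval₂Hom_bind₁ π v D' (E' j)
    rw [h1 j] at this
    simp only [eval₂Hom_X'] at this
    exact this.symm
  have hBA : ∀ v, B (A v) = v := by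
    intro v
    funext j
    have := eval₂Hom_bind₁ π v E' (D' j)
    rw [h2 j] at this
    simp only [eval₂Hom_X'] at this
    exact this.symm
  have hval : ∀ v, eval₂ π ((A v) ∘ Sum.inl) g = v i := by
    intro v
    have := eval₂Hom_bind₁ π v E' (rename Sum.inl g)
    rw [h3] at this
    simp only [eval₂Hom_X'] at this
    rw [← eval₂_rename]
    exact this.symm
  have hcard : Nat.card {w : σ ⊕ Fin m → F // eval₂ π (w ∘ Sum.inl) g = c} =
      Nat.card {v : σ ⊕ Fin m → F // v i = c} := by
    refine Nat.card_congr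
      { toFun := fun w => ⟨B w.1, ?_⟩
        invFun := fun v => ⟨A v.1, ?_⟩
        left_inv := ?_
        right_inv := ?_ }
    · rw [← hval (B w.1), hAB]
      exact w.2
    · rw [hval]
      exact v.2
    · intro w
      exact Subtype.ext (hAB w.1)
    · intro v
      exact Subtype.ext (hBA v.1)
  have hfib := Equi.card_fiber (F := F) i c
  have hsp := Equi.card_split (F := F) m (fun v : σ → F => eval₂ π v g = c)
  rw [← hcard, hsp, Fintype.card_sum, Fintype.card_fin, pow_add] at hfib
  have hpos : 0 < Nat.card F ^ m := pow_pos Nat.card_pos m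
  apply Nat.eq_of_mul_eq_mul_right hpos
  rw [← hfib]
  ring

end Vale.Agent.P295.L
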