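import Vale.Agent.P295.L.Cor

/-!
# P295: adding a polynomial in one more variable
-/

namespace Vale.Agent.P295.L

open MvPolynomial

namespace Ex

theorem vars_uni {σ : Type} (i0 : σ) (h : Polynomial ℂ) :
    ((Polynomial.aeval (X i0 : MvPolynomial σ ℂ) h).vars : Set σ) ⊆ {i0} := by
  rw [← mem_supported (R := ℂ)]
  have h1 := Polynomial.aeval_mem_adjoin_singleton ℂ (X i0 : MvPolynomial σ ℂ) (p := h)
  rw [supported]
  simp [h1]

theorem eval_uni {σ : Type} (i0 : σ) (h : Polynomial ℂ) (v : σ → ℂ) :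
    eval v (Polynomial.aeval (X i0 : MvPolynomial σ ℂ) h) = h.eval (v i0) := by
  have h1 := Polynomial.aeval_algHom_apply (MvPolynomial.aeval v : MvPolynomial σ ℂ →ₐ[ℂ] ℂ)
    (X i0) h
  rw [aeval_X, Polynomial.coe_aeval_eq_eval, aeval_eq_eval] at h1
  exact h1.symm

/-- distinct solutions of `h x = t` -/
noncomputable def R (h : Polynomial ℂ) (t : ℂ) : Finset ℂ := (h - Polynomial.C t).roots.toFinset

theorem mem_R (h : Polynomial ℂ) (hd : 0 < h.natDegree) (t x : ℂ) : x ∈ R h t ↔ h.eval x = t := by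
  have hne : h - Polynomial.C t ≠ 0 := by
    intro h0
    have : h = Polynomial.C t := sub_eq_zero.mp h0
    rw [this] at hd
    simp at hd
  rw [R, Multiset.mem_toFinset, Polynomial.mem_roots hne]
  simp [sub_eq_zero]

theorem card_R_le (h : Polynomial ℂ) (t : ℂ) : (R h t).card ≤ h.natDegree := by
  refine (Multiset.toFinset_card_le _).trans ((Polynomial.card_roots' _).trans ?_)
  exact Polynomial.natDegree_sub_C.le

theorem card_roots_eq (h : Polynomial ℂ) (t : ℂ) :
    (h - Polynomial.C t).roots.card = h.natDegree := by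
  rw [← Polynomial.natDegree_sub_C (p := h) (a := t)]
  exact IsAlgClosed.card_roots_eq_natDegree

theorem card_R_lt (h : Polynomial ℂ) (hd : 0 < h.natDegree) (x : ℂ)
    (hx : (Polynomial.derivative h).eval x = 0) : (R h (h.eval x)).card < h.natDegree := by
  have hne : h - Polynomial.C (h.eval x) ≠ 0 := by
    intro h0
    have : h = Polynomial.C (h.eval x) := sub_eq_zero.mp h0
    rw [this] at hd
    simp at hd
  rw [← card_roots_eq h (h.eval x), R]
  apply lt_of_le_of_ne (Multiset.toFinset_card_le _)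
  intro heq
  have hnd : (h - Polynomial.C (h.eval x)).roots.Nodup := Multiset.toFinset_card_eq_card_iff_nodup.mp heq
  have h1 := Multiset.nodup_iff_count_le_one.mp hnd x
  rw [Polynomial.count_roots] at h1
  have h2 : 1 < (h - Polynomial.C (h.eval x)).rootMultiplicity x := by
    rw [Polynomial.one_lt_rootMultiplicity_iff_isRoot hne]
    simp [Polynomial.IsRoot, hx]
  omega

theorem card_R_eq (h : Polynomial ℂ) (hd : 0 < h.natDegree) (t : ℂ)
    (ht : ∀ x, (Polynomial.derivative h).eval x = 0 → h.eval x ≠ t) :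
    (R h t).card = h.natDegree := by
  have hne : h - Polynomial.C t ≠ 0 := by
    intro h0
    have : h = Polynomial.C t := sub_eq_zero.mp h0
    rw [this] at hd
    simp at hd
  rw [← card_roots_eq h t, R]
  apply Multiset.toFinset_card_of_nodup
  rw [Multiset.nodup_iff_count_le_one]
  intro x
  rw [Polynomial.count_roots]
  by_contra hlt
  push Not at hlt
  rw [Polynomial.one_lt_rootMultiplicity_iff_isRoot hne] at hlt
  simp only [Polynomial.IsRoot, Polynomial.eval_sub, Polynomial.eval_C, Polynomial.derivative_sub,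
    Polynomial.derivative_C, sub_zero] at hlt
  exact ht x hlt.2 (sub_eq_zero.mp hlt.1)

theorem fib_card {σ : Type} [Fintype σ] [DecidableEq σ] (Z : Finset σ)
    (a : σ → MvPolynomial σ ℂ) (b : MvPolynomial σ ℂ) (i0 : σ) (hi0 : i0 ∉ Z)
    (h : Polynomial ℂ) (hd : 0 < h.natDegree)
    (ha : ∀ j ∈ Z, i0 ∉ (a j).vars) (hb : i0 ∉ b.vars)
    (hfin : {v : σ → ℂ | (∀ j ∈ Z, v j = 0) ∧ v i0 = 0 ∧
      ∀ j ∈ Z, eval v (a j) = 0}.Finite) (c : ℂ) :
    (Fib Z a (b + Polynomial.aeval (X i0) h) c).encard =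
      ((∑ y ∈ hfin.toFinset, (R h (c - eval y b)).card : ℕ) : ℕ∞) := by
  have hup : ∀ (p : MvPolynomial σ ℂ) (v : σ → ℂ) (x : ℂ), i0 ∉ p.vars →
      eval (Function.update v i0 x) p = eval v p := by
    intro p v x hp
    apply eval_congr_vars
    intro i hi
    rw [Function.update_of_ne]
    rintro rfl
    exact hp hi
  have h1 : Fib Z a (b + Polynomial.aeval (X i0) h) c =
      (((hfin.toFinset.sigma (fun y => R h (c - eval y b))).image
        (fun p => Function.update p.1 i0 p.2) : Finset (σ → ℂ)) : Set (σ → ℂ)) := by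
    ext v
    rw [Finset.coe_image]
    constructor
    · rintro ⟨h1, h2, h3⟩
      rw [map_add, eval_uni] at h3
      refine ⟨⟨Function.update v i0 0, v i0⟩, ?_, ?_⟩
      · rw [Finset.mem_coe, Finset.mem_sigma, Set.Finite.mem_toFinset]
        refine ⟨⟨fun j hj => ?_, by simp, fun j hj => ?_⟩, ?_⟩
        · have : j ≠ i0 := by
            rintro rfl
            exact hi0 hj
          simp only
          rw [Function.update_of_ne this]
          exact h1 j hj
        · simp only
          rw [hup _ _ _ (ha j hj)]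
          exact h2 j hj
        · simp only
          rw [mem_R h hd, hup _ _ _ hb]
          rw [← h3]
          ring
      · simp
    · rintro ⟨⟨y, x⟩, hp, rfl⟩
      rw [Finset.mem_coe, Finset.mem_sigma, Set.Finite.mem_toFinset] at hp
      obtain ⟨⟨g1, g2, g3⟩, g4⟩ := hp
      simp only at g1 g2 g3 g4
      rw [mem_R h hd] at g4
      refine ⟨fun j hj => ?_, fun j hj => ?_, ?_⟩
      · have : j ≠ i0 := by
          rintro rfl
          exact hi0 hj
        simp only
        rw [Function.update_of_ne this]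
        exact g1 j hj
      · simp only
        rw [hup _ _ _ (ha j hj)]
        exact g3 j hj
      · simp only
        rw [map_add, eval_uni, hup _ _ _ hb, Function.update_self, g4]
        ring
  rw [h1, Set.encard_coe_eq_coe_finsetCard, Finset.card_image_of_injOn, Finset.card_sigma]
  rintro ⟨y, x⟩ hp ⟨y', x'⟩ hp' heq
  rw [Finset.mem_coe, Finset.mem_sigma, Set.Finite.mem_toFinset] at hp hp'
  simp only at heq
  have hx : x = x' := by
    have := congrFun heq i0
    simpa using this
  have hy : y = y' := by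
    funext i
    by_cases hi : i = i0
    · rw [hi]
      exact hp.1.2.1.trans hp'.1.2.1.symm
    · have := congrFun heq i
      rwa [Function.update_of_ne hi, Function.update_of_ne hi] at this
  rw [hx, hy]

theorem no_two {σ : Type} [Fintype σ] [DecidableEq σ] (Z : Finset σ)
    (a : σ → MvPolynomial σ ℂ) (b : MvPolynomial σ ℂ) (i0 : σ) (hi0 : i0 ∉ Z)
    (h : Polynomial ℂ) (hd : 2 ≤ h.natDegree)
    (ha : ∀ j ∈ Z, i0 ∉ (a j).vars) (hb : i0 ∉ b.vars)
    (hfin : {v : σ → ℂ | (∀ j ∈ Z, v j = 0) ∧ v i0 = 0 ∧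
      ∀ j ∈ Z, eval v (a j) = 0}.Finite)
    (hne : {v : σ → ℂ | (∀ j ∈ Z, v j = 0) ∧ v i0 = 0 ∧
      ∀ j ∈ Z, eval v (a j) = 0}.Nonempty)
    (heq : ∀ c₁ c₂, (Fib Z a (b + Polynomial.aeval (X i0) h) c₁).encard =
      (Fib Z a (b + Polynomial.aeval (X i0) h) c₂).encard) : False := by
  have hd' : 0 < h.natDegree := by omega
  have hdd : (Polynomial.derivative h).natDegree = h.natDegree - 1 :=
    Polynomial.natDegree_derivative h
  have hd0 : Polynomial.derivative h ≠ 0 := by
    intro h0
    rw [h0, Polynomial.natDegree_zero] at hdd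
    omega
  obtain ⟨xs, hxs⟩ := IsAlgClosed.exists_root (Polynomial.derivative h) (by
    intro h0
    have := Polynomial.natDegree_eq_zero_iff_degree_le_zero.mpr h0.le
    omega)
  obtain ⟨ys, hys⟩ := hne
  obtain ⟨c₂, hc₂⟩ := (Set.Finite.infinite_compl (Finset.finite_toSet
    (((Polynomial.derivative h).roots.toFinset ×ˢ hfin.toFinset).image
      (fun p => h.eval p.1 + eval p.2 b)))).nonempty
  have h1 := heq (h.eval xs + eval ys b) c₂
  rw [fib_card Z a b i0 hi0 h hd' ha hb hfin, fib_card Z a b i0 hi0 h hd' ha hb hfin] at h1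
  have h2 : ∑ y ∈ hfin.toFinset, (R h (h.eval xs + eval ys b - eval y b)).card =
      ∑ y ∈ hfin.toFinset, (R h (c₂ - eval y b)).card := by exact_mod_cast h1
  have h3 : ∀ y ∈ hfin.toFinset, (R h (c₂ - eval y b)).card = h.natDegree := by
    intro y hy
    apply card_R_eq h hd'
    intro x hx hxe
    apply hc₂
    rw [Finset.mem_coe, Finset.mem_image]
    refine ⟨(x, y), ?_, ?_⟩
    · rw [Finset.mem_product, Multiset.mem_toFinset, Polynomial.mem_roots hd0]
      exact ⟨hx, hy⟩
    · simp only
      rw [hxe]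
      ring
  have h4 : ∑ y ∈ hfin.toFinset, (R h (h.eval xs + eval ys b - eval y b)).card <
      ∑ y ∈ hfin.toFinset, (R h (c₂ - eval y b)).card := by
    apply Finset.sum_lt_sum
    · intro y hy
      rw [h3 y hy]
      exact card_R_le _ _
    · refine ⟨ys, hfin.mem_toFinset.mpr hys, ?_⟩
      rw [h3 ys (hfin.mem_toFinset.mpr hys), add_sub_cancel_right]
      exact card_R_lt h hd' xs hxs
  omega

end Ex

open Ex in
theorem coord_of_uni {σ : Type} [Fintype σ] [DecidableEq σ] (Z : Finset σ)
    (a : σ → MvPolynomial σ ℂ) (b : MvPolynomial σ ℂ) (i0 : σ) (hi0 : i0 ∉ Z)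
    (h : Polynomial ℂ) (ha : ∀ j ∈ Z, Disjoint (a j).vars (insert i0 Z))
    (hb : Disjoint b.vars (insert i0 Z))
    (hfin : {v : σ → ℂ | (∀ j ∈ Z, v j = 0) ∧ v i0 = 0 ∧
      ∀ j ∈ Z, eval v (a j) = 0}.Finite)
    (hs : IsStableCoordinate (∑ j ∈ Z, a j * X j + (b + Polynomial.aeval (X i0) h))) :
    IsCoordinate (∑ j ∈ Z, a j * X j + (b + Polynomial.aeval (X i0) h)) := by
  have ha' : ∀ j ∈ Z, i0 ∉ (a j).vars := fun j hj hi =>
    Finset.disjoint_left.mp (ha j hj) hi (Finset.mem_insert_self _ _)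
  have hb' : i0 ∉ b.vars := fun hi =>
    Finset.disjoint_left.mp hb hi (Finset.mem_insert_self _ _)
  have haZ : ∀ j ∈ Z, Disjoint (a j).vars Z := fun j hj =>
    Finset.disjoint_of_subset_right (Finset.subset_insert _ _) (ha j hj)
  have hBZ : Disjoint (b + Polynomial.aeval (X i0 : MvPolynomial σ ℂ) h).vars Z := by
    rw [Finset.disjoint_left]
    intro i hi hZ
    rcases Finset.mem_union.mp (vars_add_subset _ _ hi) with h1 | h1
    · exact Finset.disjoint_left.mp hb h1 (Finset.mem_insert_of_mem hZ)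
    · have : i = i0 := vars_uni i0 h h1
      rw [this] at hZ
      exact hi0 hZ
  have hup : ∀ (p : MvPolynomial σ ℂ) (v : σ → ℂ) (x : ℂ), i0 ∉ p.vars →
      eval (Function.update v i0 x) p = eval v p := by
    intro p v x hp
    apply eval_congr_vars
    intro i hi
    rw [Function.update_of_ne]
    rintro rfl
    exact hp hi
  have hV0 : ∀ v, (∀ j ∈ Z, v j = 0) → (∀ j ∈ Z, eval v (a j) = 0) →
      Function.update v i0 0 ∈ {v : σ → ℂ | (∀ j ∈ Z, v j = 0) ∧ v i0 = 0 ∧
        ∀ j ∈ Z, eval v (a j) = 0} := by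
    intro v h1 h2
    refine ⟨fun j hj => ?_, by simp, fun j hj => ?_⟩
    · have : j ≠ i0 := by
        rintro rfl
        exact hi0 hj
      rw [Function.update_of_ne this]
      exact h1 j hj
    · rw [hup _ _ _ (ha' j hj)]
      exact h2 j hj
  by_cases hd : 2 ≤ h.natDegree
  · have hemp : {v : σ → ℂ | (∀ j ∈ Z, v j = 0) ∧ v i0 = 0 ∧ ∀ j ∈ Z, eval v (a j) = 0} = ∅ := by
      rw [← Set.not_nonempty_iff_eq_empty]
      intro hne
      exact no_two Z a b i0 hi0 h hd ha' hb' hfin hne (fib_encard Z a _ haZ hBZ hs)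
    apply coord_of_fib_empty Z a _ haZ hBZ hs 0
    ext v
    simp only [Set.mem_empty_iff_false, iff_false]
    rintro ⟨h1, h2, -⟩
    have := hV0 v h1 h2
    rw [hemp] at this
    exact this
  · push Not at hd
    obtain ⟨α, β, hαβ⟩ := Polynomial.exists_eq_X_add_C_of_natDegree_le_one (p := h) (by omega)
    by_cases hα : α = 0
    · obtain ⟨c, hc⟩ := (Set.Finite.infinite_compl
        (hfin.image (fun v => eval v b + β))).nonempty
      apply coord_of_fib_empty Z a _ haZ hBZ hs c
      ext v
      simp only [Set.mem_empty_iff_false, iff_false]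
      rintro ⟨h1, h2, h3⟩
      apply hc
      refine ⟨_, hV0 v h1 h2, ?_⟩
      simp only
      rw [hup _ _ _ hb', ← h3, map_add, eval_uni, hαβ, hα]
      simp
    · apply isCoordinate_of_pderiv hα (i := i0)
      rw [map_add, map_add, map_sum, pderiv_eq_zero_of_notMem_vars hb', zero_add, hαβ]
      rw [Finset.sum_eq_zero]
      · simp
      · intro j hj
        have hne : j ≠ i0 := by
          rintro rfl
          exact hi0 hj
        rw [pderiv_mul, pderiv_eq_zero_of_notMem_vars (ha' j hj), pderiv_X_of_ne hne]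
        simp

end Vale.Agent.P295.L
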