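import Mathlib

/-! P295, row N: the Nullstellensatz step. -/

namespace Vale.Agent.P295.L

open MvPolynomial

/-- [N] Null.lean -/
theorem null {σ : Type} [Fintype σ] (Z : Finset σ) (a : σ → MvPolynomial σ ℂ)
    (b : MvPolynomial σ ℂ)
    (hfin : ((fun v : σ → ℂ => eval v b) '' {v | ∀ j ∈ Z, eval v (a j) = 0}).Finite) :
    ∃ (P : Polynomial ℂ) (u : σ → MvPolynomial σ ℂ), P.Monic ∧
      Polynomial.aeval b P = ∑ j ∈ Z, u j * a j := by
  classical
  set vals : Finset ℂ := hfin.toFinset with hvals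
  set P0 : Polynomial ℂ := ∏ c ∈ vals, (Polynomial.X - Polynomial.C c) with hP0
  set I : Ideal (MvPolynomial σ ℂ) := Ideal.span (a '' (Z : Set σ)) with hI
  have h1 : Polynomial.aeval b P0 ∈ I.radical := by
    rw [← vanishingIdeal_zeroLocus_eq_radical (K := ℂ) I, mem_vanishingIdeal_iff]
    intro v hv
    have hv' : ∀ j ∈ Z, eval v (a j) = 0 := by
      intro j hj
      have h2 := (mem_zeroLocus_iff.mp hv) (a j)
        (Ideal.subset_span (Set.mem_image_of_mem a (Finset.mem_coe.mpr hj)))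
      simpa [aeval_eq_eval] using h2
    have hmem : eval v b ∈ vals := by
      rw [hvals, Set.Finite.mem_toFinset]
      exact ⟨v, hv', rfl⟩
    have h3 : (aeval v) (Polynomial.aeval b P0) = ∏ c ∈ vals, (eval v b - c) := by
      rw [hP0, map_prod, map_prod]
      refine Finset.prod_congr rfl fun c _ => ?_
      simp [aeval_eq_eval]
    rw [h3]
    exact Finset.prod_eq_zero hmem (sub_self _)
  obtain ⟨N, hN⟩ := Ideal.mem_radical_iff.mp h1
  have h4 : Polynomial.aeval b (P0 ^ N) ∈ Submodule.span (MvPolynomial σ ℂ) (a '' (Z : Set σ)) := by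
    rw [map_pow]
    exact hN
  rw [Submodule.mem_span_image_finset_iff_exists_fun'] at h4
  obtain ⟨u, hu⟩ := h4
  refine ⟨P0 ^ N, u, ?_, ?_⟩
  · apply Polynomial.Monic.pow
    exact Polynomial.monic_prod_of_monic _ _ fun c _ => Polynomial.monic_X_sub_C c
  · rw [← hu]
    rfl

end Vale.Agent.P295.L
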