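import Vale.Agent.P295.L.Ext
import Vale.Agent.P295.L.Null

/-!
# P295: adding a polynomial in one more variable, `b` finitely valued
-/

namespace Vale.Agent.P295.L

open MvPolynomial

namespace Fv

theorem total {σ F : Type} [Fintype σ] [DecidableEq σ] [Field F] [Finite F] (Z : Finset σ)
    (i0 : σ) (hi0 : i0 ∉ Z) (a : σ → (σ → F) → F) (B : (σ → F) → F)
    (ha : ∀ j v x, a j (Function.update v i0 x) = a j v) (c : F)
    (hM : ∀ c' : F, Nat.card {v : σ → F // (∀ j ∈ Z, v j = 0) ∧ (∀ j ∈ Z, a j v = 0) ∧ B v = c'} =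
      Nat.card {v : σ → F // (∀ j ∈ Z, v j = 0) ∧ (∀ j ∈ Z, a j v = 0) ∧ B v = c}) :
    Nat.card {v : σ → F // (∀ j ∈ Z, v j = 0) ∧ (∀ j ∈ Z, a j v = 0) ∧ B v = c} =
      Nat.card {v : σ → F // (∀ j ∈ Z, v j = 0) ∧ v i0 = 0 ∧ ∀ j ∈ Z, a j v = 0} := by
  classical
  have : Fintype F := Fintype.ofFinite F
  let V := {v : σ → F // (∀ j ∈ Z, v j = 0) ∧ (∀ j ∈ Z, a j v = 0)}
  have h1 : Nat.card V = Nat.card F *
      Nat.card {v : σ → F // (∀ j ∈ Z, v j = 0) ∧ (∀ j ∈ Z, a j v = 0) ∧ B v = c} := by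
    rw [← Nat.card_congr (Equiv.sigmaFiberEquiv (fun v : V => B v.1)), Nat.card_sigma]
    have h2 : ∀ c' : F, Nat.card {v : V // B v.1 = c'} =
        Nat.card {v : σ → F // (∀ j ∈ Z, v j = 0) ∧ (∀ j ∈ Z, a j v = 0) ∧ B v = c} := by
      intro c'
      rw [← hM c']
      apply Nat.card_congr
      exact
        { toFun := fun v => ⟨v.1.1, v.1.2.1, v.1.2.2, v.2⟩
          invFun := fun v => ⟨⟨v.1, v.2.1, v.2.2.1⟩, v.2.2.2⟩
          left_inv := fun v => rfl
          right_inv := fun v => rfl }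
    simp only [h2, Finset.sum_const, Finset.card_univ, smul_eq_mul, Nat.card_eq_fintype_card]
  have h3 : Nat.card V = Nat.card {v : σ → F // (∀ j ∈ Z, v j = 0) ∧ v i0 = 0 ∧
      ∀ j ∈ Z, a j v = 0} * Nat.card F := by
    rw [← Nat.card_prod]
    apply Nat.card_congr
    have hne : ∀ j ∈ Z, j ≠ i0 := by
      rintro j hj rfl
      exact hi0 hj
    exact
      { toFun := fun v => (⟨Function.update v.1 i0 0,
          fun j hj => by rw [Function.update_of_ne (hne j hj)]; exact v.2.1 j hj,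
          by simp, fun j hj => by rw [ha]; exact v.2.2 j hj⟩, v.1 i0)
        invFun := fun p => ⟨Function.update p.1.1 i0 p.2,
          fun j hj => by rw [Function.update_of_ne (hne j hj)]; exact p.1.2.1 j hj,
          fun j hj => by rw [ha]; exact p.1.2.2.2 j hj⟩
        left_inv := fun v => by
          apply Subtype.ext
          simp
        right_inv := fun p => by
          apply Prod.ext
          · apply Subtype.ext
            simp only [Function.update_idem]
            funext i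
            by_cases hi : i = i0
            · rw [hi, Function.update_self]
              exact p.1.2.2.1.symm
            · rw [Function.update_of_ne hi]
          · simp }
  have h4 : 0 < Nat.card F := Nat.card_pos
  rw [h3, mul_comm] at h1
  exact (Nat.eq_of_mul_eq_mul_left h4 h1).symm

theorem null2 {σ : Type} [Fintype σ] (Z : Finset σ) (a : σ → MvPolynomial σ ℂ)
    (b : MvPolynomial σ ℂ)
    (hfin : ((fun v : σ → ℂ => eval v b) '' {v | ∀ j ∈ Z, eval v (a j) = 0}).Finite) :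
    ∃ (vals : Finset ℂ) (N : ℕ) (u : σ → MvPolynomial σ ℂ),
      (∏ c ∈ vals, (b - C c)) ^ N = ∑ j ∈ Z, u j * a j := by
  classical
  set vals : Finset ℂ := hfin.toFinset with hvals
  set I : Ideal (MvPolynomial σ ℂ) := Ideal.span (a '' (Z : Set σ)) with hI
  have h1 : ∏ c ∈ vals, (b - C c) ∈ I.radical := by
    rw [← vanishingIdeal_zeroLocus_eq_radical (K := ℂ) I, mem_vanishingIdeal_iff]
    intro v hv
    have hv' : ∀ j ∈ Z, eval v (a j) = 0 := by
      intro j hj
      have h2 := (mem_zeroLocus_iff.mp hv) (a j)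
        (Ideal.subset_span (Set.mem_image_of_mem a (Finset.mem_coe.mpr hj)))
      simpa [aeval_eq_eval] using h2
    have hmem : eval v b ∈ vals := by
      rw [hvals, Set.Finite.mem_toFinset]
      exact ⟨v, hv', rfl⟩
    rw [map_prod]
    apply Finset.prod_eq_zero hmem
    simp [aeval_eq_eval]
  obtain ⟨N, hN⟩ := Ideal.mem_radical_iff.mp h1
  have h4 : (∏ c ∈ vals, (b - C c)) ^ N ∈
      Submodule.span (MvPolynomial σ ℂ) (a '' (Z : Set σ)) := hN
  rw [Submodule.mem_span_image_finset_iff_exists_fun'] at h4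
  obtain ⟨u, hu⟩ := h4
  exact ⟨vals, N, u, by rw [← hu]; rfl⟩

theorem two_pre (h : Polynomial ℂ) (hd : 2 ≤ h.natDegree) :
    ∃ x₁ x₂ : ℂ, x₁ ≠ x₂ ∧ h.eval x₁ = h.eval x₂ := by
  have hd' : 0 < h.natDegree := by omega
  have hd0 : Polynomial.derivative h ≠ 0 := by
    intro h0
    have hdd : (Polynomial.derivative h).natDegree = h.natDegree - 1 :=
      Polynomial.natDegree_derivative h
    rw [h0, Polynomial.natDegree_zero] at hdd
    omega
  obtain ⟨c, hc⟩ := (Set.Finite.infinite_compl (Finset.finite_toSet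
    ((Polynomial.derivative h).roots.toFinset.image (fun p => h.eval p)))).nonempty
  have h1 := Ex.card_R_eq h hd' c (by
    intro x hx hxe
    apply hc
    rw [Finset.mem_coe, Finset.mem_image]
    refine ⟨x, ?_, hxe⟩
    rw [Multiset.mem_toFinset, Polynomial.mem_roots hd0]
    exact hx)
  have h2 : 1 < (Ex.R h c).card := by omega
  obtain ⟨x₁, hx₁, x₂, hx₂, hne⟩ := Finset.one_lt_card.mp h2
  rw [Ex.mem_R h hd'] at hx₁ hx₂
  exact ⟨x₁, x₂, hne, by rw [hx₁, hx₂]⟩

theorem no_ext {σ : Type} [Fintype σ] [DecidableEq σ] (Z : Finset σ)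
    (a : σ → MvPolynomial σ ℂ) (b : MvPolynomial σ ℂ) (i0 : σ) (hi0 : i0 ∉ Z)
    (h : Polynomial ℂ) (hd : 2 ≤ h.natDegree)
    (ha : ∀ j ∈ Z, Disjoint (a j).vars (insert i0 Z)) (hb : Disjoint b.vars (insert i0 Z))
    (hBZ : Disjoint (b + Polynomial.aeval (X i0 : MvPolynomial σ ℂ) h).vars Z)
    (hfin : ((fun v : σ → ℂ => eval v b) '' {v | ∀ j ∈ Z, eval v (a j) = 0}).Finite)
    (hs : IsStableCoordinate (∑ j ∈ Z, a j * X j + (b + Polynomial.aeval (X i0) h)))
    (y : σ → ℂ) (hyZ : ∀ j ∈ Z, y j = 0) (hyi : y i0 = 0) (hy : ∀ j ∈ Z, eval y (a j) = 0) :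
    False := by
  classical
  have haZ : ∀ j ∈ Z, Disjoint (a j).vars Z := fun j hj =>
    Finset.disjoint_of_subset_right (Finset.subset_insert _ _) (ha j hj)
  have hhd : 0 < h.natDegree := by omega
  obtain ⟨vals, N, u, hu⟩ := null2 Z a b hfin
  obtain ⟨x₁, x₂, hx12, hx⟩ := two_pre h hd
  set c₀ : ℂ := h.eval x₁ + eval y b with hc₀
  have hpre : ∀ r : ℂ, ∃ x : ℂ, h.eval x = c₀ - r := by
    intro r
    obtain ⟨x, hx⟩ := IsAlgClosed.exists_root (h - Polynomial.C (c₀ - r)) (by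
      intro h0
      have h1 := Polynomial.natDegree_eq_zero_iff_degree_le_zero.mpr h0.le
      rw [Polynomial.natDegree_sub_C] at h1
      omega)
    refine ⟨x, ?_⟩
    simpa [Polynomial.IsRoot, sub_eq_zero] using hx
  choose xr hxr using hpre
  obtain ⟨T, hT⟩ := equi _ hs
  obtain ⟨S, F, iF, iFin, π, hS⟩ := spec (T ∪ (Finset.univ.biUnion fun j => (a j).coeffs) ∪
    (Finset.univ.biUnion fun j => (u j).coeffs) ∪ b.coeffs ∪ Finset.univ.image y ∪
    vals ∪ vals.image xr ∪ {x₁, x₂, (x₁ - x₂)⁻¹, c₀} ∪ h.coeffs)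
  simp only [Finset.coe_union, Set.union_subset_iff] at hS
  obtain ⟨⟨⟨⟨⟨⟨⟨⟨hS1, hS2⟩, hS3⟩, hS4⟩, hS5⟩, hS6⟩, hS7⟩, hS8⟩, hS9⟩ := hS
  have hla : ∀ j, ∃ q : MvPolynomial σ S, MvPolynomial.map S.subtype q = a j := fun j =>
    Mn.lift S _ (fun x hx => hS2 (by
      simp only [Finset.coe_biUnion, Set.mem_iUnion]
      exact ⟨j, by simp, hx⟩))
  have hlu : ∀ j, ∃ q : MvPolynomial σ S, MvPolynomial.map S.subtype q = u j := fun j =>
    Mn.lift S _ (fun x hx => hS3 (by
      simp only [Finset.coe_biUnion, Set.mem_iUnion]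
      exact ⟨j, by simp, hx⟩))
  obtain ⟨bS, hbS⟩ := Mn.lift S b hS4
  choose aS haS using hla
  choose uS huS using hlu
  have hyS : ∀ i, y i ∈ S := fun i => hS5 (by simp)
  have hvS : ∀ r ∈ vals, r ∈ S := fun r hr => hS6 hr
  have hxrS : ∀ r ∈ vals, xr r ∈ S := fun r hr => hS7 (by
    rw [Finset.coe_image]
    exact ⟨r, hr, rfl⟩)
  have hx1S : x₁ ∈ S := hS8 (by simp)
  have hx2S : x₂ ∈ S := hS8 (by simp)
  have hxiS : (x₁ - x₂)⁻¹ ∈ S := hS8 (by simp)
  have hcS : c₀ ∈ S := hS8 (by simp)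
  set hh := h.toSubring S hS9 with hhh
  have hmaph : hh.map S.subtype = h := Polynomial.map_toSubring h S hS9
  set BS : MvPolynomial σ S := bS + Polynomial.aeval (X i0 : MvPolynomial σ S) hh with hBS
  have hBSmap : MvPolynomial.map S.subtype BS = b + Polynomial.aeval (X i0) h := by
    rw [hBS, map_add, hbS, Polynomial.aeval_def, Polynomial.hom_eval₂, map_X]
    congr 1
    rw [Polynomial.aeval_def]
    conv_rhs => rw [← hmaph, Polynomial.eval₂_map]
    congr 1
    ext x
    simp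
  have hBev : ∀ v : σ → F, eval₂ π v BS = eval₂ π v bS + Polynomial.eval₂ π (v i0) hh := by
    intro v
    rw [hBS, ← coe_eval₂Hom, map_add, Polynomial.aeval_def, Polynomial.hom_eval₂]
    congr 1
    · simp only [eval₂Hom_X']
      congr 1
      ext x
      simp
  -- values of `h` at points of `S`
  have hval : ∀ x t : S, h.eval (x : ℂ) = (t : ℂ) → Polynomial.eval₂ π (π x) hh = π t := by
    intro x t hxt
    rw [Polynomial.eval₂_at_apply]
    congr 1
    apply Subtype.coe_injective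
    change S.subtype (hh.eval x) = (t : ℂ)
    rw [← hxt, ← hmaph, Polynomial.eval_map]
    exact (Polynomial.eval₂_at_apply S.subtype x).symm
  have hupd : ∀ (p : MvPolynomial σ ℂ) (q : MvPolynomial σ S), MvPolynomial.map S.subtype q = p →
      Disjoint p.vars (insert i0 Z) → ∀ (v : σ → F) (x : F),
      eval₂ π (Function.update v i0 x) q = eval₂ π v q := by
    intro p q hq hp v x
    apply Mn.eval_congr S π (insert i0 Z) p hp q hq
    intro i hi
    rw [Function.update_of_ne]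
    rintro rfl
    exact hi (Finset.mem_insert_self _ _)
  -- the values of `b` over `F`
  have hid : (∏ r ∈ vals.attach, (bS - C ⟨r.1, hvS r.1 r.2⟩)) ^ N = ∑ j ∈ Z, uS j * aS j := by
    apply Mn.map_inj S
    rw [map_pow, map_prod, map_sum]
    simp only [map_mul, haS, huS, map_sub, hbS, map_C]
    rw [← hu, ← Finset.prod_attach vals]
    rfl
  have hbval : ∀ v : σ → F, (∀ j ∈ Z, eval₂ π v (aS j) = 0) →
      ∃ r, ∃ hr : r ∈ vals, eval₂ π v bS = π ⟨r, hvS r hr⟩ := by
    intro v hv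
    have h1 := congrArg (eval₂Hom π v) hid
    rw [map_pow, map_prod, map_sum] at h1
    have h2 : ∑ j ∈ Z, (eval₂Hom π v) (uS j * aS j) = 0 := by
      apply Finset.sum_eq_zero
      intro j hj
      rw [map_mul, coe_eval₂Hom, hv j hj, mul_zero]
    rw [h2] at h1
    have h3 := eq_zero_of_pow_eq_zero h1
    rw [Finset.prod_eq_zero_iff] at h3
    obtain ⟨r, -, hr⟩ := h3
    refine ⟨r.1, r.2, ?_⟩
    rw [map_sub, sub_eq_zero] at hr
    simpa using hr
  -- counting
  have hN : ∀ c : F, Nat.card {v : σ → F // ∑ j ∈ Z, (if j ∈ Z then eval₂ π v (aS j) else 0) * v j +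
      eval₂ π v BS = c} * Nat.card F = Nat.card F ^ Fintype.card σ := by
    intro c
    have h := hT S hS1 F π (∑ j ∈ Z, aS j * X j + BS) (by
      rw [map_add, map_sum, hBSmap]
      simp [haS]) c
    rw [← h]
    congr 1
    apply Nat.card_congr
    apply Equiv.subtypeEquivRight
    intro v
    have h1 : eval₂ π v (∑ j ∈ Z, aS j * X j + BS) =
        ∑ j ∈ Z, (if j ∈ Z then eval₂ π v (aS j) else 0) * v j + eval₂ π v BS := by
      rw [← coe_eval₂Hom, map_add, map_sum]
      congr 1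
      refine Finset.sum_congr rfl fun j hj => ?_
      simp [hj]
    rw [h1]
  have hM := fun c' => count2 Z (fun j v => if j ∈ Z then eval₂ π v (aS j) else 0)
    (fun v => eval₂ π v BS)
    (by
      intro j v w hvw
      split_ifs with hj
      · exact Mn.eval_congr S π Z (a j) (haZ j hj) _ (haS j) v w hvw
      · rfl)
    (fun v w hvw => Mn.eval_congr S π Z _ hBZ _ hBSmap v w hvw) c' (π ⟨c₀, hcS⟩)
    (hN _) (hN _)
  have htot := total Z i0 hi0 (fun j v => if j ∈ Z then eval₂ π v (aS j) else 0)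
    (fun v => eval₂ π v BS) (by
      intro j v x
      split_ifs with hj
      · exact hupd _ _ (haS j) (ha j hj) v x
      · rfl) (π ⟨c₀, hcS⟩) hM
  -- the injection
  set V0 := {v : σ → F // (∀ j ∈ Z, v j = 0) ∧ v i0 = 0 ∧
    ∀ j ∈ Z, (if j ∈ Z then eval₂ π v (aS j) else 0) = 0} with hV0
  set Vc := {v : σ → F // (∀ j ∈ Z, v j = 0) ∧
    (∀ j ∈ Z, (if j ∈ Z then eval₂ π v (aS j) else 0) = 0) ∧
    eval₂ π v BS = π ⟨c₀, hcS⟩} with hVc
  have hne : ∀ j ∈ Z, j ≠ i0 := by
    rintro j hj rfl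
    exact hi0 hj
  have mk : ∀ (v : V0) (x : F), eval₂ π v.1 bS + Polynomial.eval₂ π x hh = π ⟨c₀, hcS⟩ →
      (∀ j ∈ Z, (Function.update v.1 i0 x) j = 0) ∧
      (∀ j ∈ Z, (if j ∈ Z then eval₂ π (Function.update v.1 i0 x) (aS j) else 0) = 0) ∧
      eval₂ π (Function.update v.1 i0 x) BS = π ⟨c₀, hcS⟩ := by
    intro v x hx
    refine ⟨fun j hj => ?_, fun j hj => ?_, ?_⟩
    · rw [Function.update_of_ne (hne j hj)]
      exact v.2.1 j hj
    · simp only [hj, if_true]
      rw [hupd _ _ (haS j) (ha j hj)]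
      have := v.2.2.2 j hj
      simpa [hj] using this
    · rw [hBev, hupd _ _ hbS hb, Function.update_self]
      exact hx
  have hex : ∀ v : V0, ∃ x : F, eval₂ π v.1 bS + Polynomial.eval₂ π x hh = π ⟨c₀, hcS⟩ := by
    intro v
    obtain ⟨r, hr, hvr⟩ := hbval v.1 (fun j hj => by
      have := v.2.2.2 j hj
      simpa [hj] using this)
    refine ⟨π ⟨xr r, hxrS r hr⟩, ?_⟩
    rw [hvr, hval ⟨xr r, hxrS r hr⟩ (⟨c₀, hcS⟩ - ⟨r, hvS r hr⟩) (by
      rw [hxr r]
      rfl), map_sub]
    ring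
  choose g hg using hex
  have hyb : eval₂ π (fun i => π ⟨y i, hyS i⟩) bS + Polynomial.eval₂ π (π ⟨x₁, hx1S⟩) hh =
      π ⟨c₀, hcS⟩ ∧ eval₂ π (fun i => π ⟨y i, hyS i⟩) bS +
      Polynomial.eval₂ π (π ⟨x₂, hx2S⟩) hh = π ⟨c₀, hcS⟩ := by
    have hbyS : eval y b ∈ S := by
      have : eval y b = c₀ - h.eval x₁ := by rw [hc₀]; ring
      rw [this]
      refine S.sub_mem hcS ?_
      rw [← hmaph]
      have h5 : (hh.map S.subtype).eval x₁ = S.subtype (hh.eval ⟨x₁, hx1S⟩) := by
        rw [Polynomial.eval_map]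
        exact Polynomial.eval₂_at_apply S.subtype ⟨x₁, hx1S⟩
      rw [h5]
      exact (hh.eval ⟨x₁, hx1S⟩).2
    have h1 := Mn.eval_point S π (b - C (eval y b)) (bS - C ⟨eval y b, hbyS⟩) (by simp [hbS])
      (fun i => ⟨y i, hyS i⟩) (by simp)
    rw [← coe_eval₂Hom, map_sub] at h1
    simp only [coe_eval₂Hom, eval₂_C, sub_eq_zero] at h1
    constructor
    · rw [h1, hval ⟨x₁, hx1S⟩ (⟨c₀, hcS⟩ - ⟨eval y b, hbyS⟩) (by
        change h.eval x₁ = c₀ - eval y b
        rw [hc₀]; ring), map_sub]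
      ring
    · rw [h1, hval ⟨x₂, hx2S⟩ (⟨c₀, hcS⟩ - ⟨eval y b, hbyS⟩) (by
        change h.eval x₂ = c₀ - eval y b
        rw [hc₀, ← hx]; ring), map_sub]
      ring
  let yF : V0 := ⟨fun i => π ⟨y i, hyS i⟩, fun j hj => by
      have : (⟨y j, hyS j⟩ : S) = 0 := Subtype.coe_injective (hyZ j hj)
      simp only [this, map_zero], by
      have : (⟨y i0, hyS i0⟩ : S) = 0 := Subtype.coe_injective hyi
      simp only [this, map_zero], fun j hj => by
      simp only [hj, if_true]
      exact Mn.eval_point S π (a j) (aS j) (haS j) (fun i => ⟨y i, hyS i⟩) (hy j hj)⟩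
  have hx12F : π ⟨x₁, hx1S⟩ ≠ π ⟨x₂, hx2S⟩ := by
    intro heq
    have h4 : ((⟨x₁, hx1S⟩ : S) - ⟨x₂, hx2S⟩) * ⟨(x₁ - x₂)⁻¹, hxiS⟩ = 1 := by
      apply Subtype.coe_injective
      change (x₁ - x₂) * (x₁ - x₂)⁻¹ = 1
      exact mul_inv_cancel₀ (sub_ne_zero.mpr hx12)
    have h5 := congrArg π h4
    rw [map_mul, map_sub, heq, sub_self, zero_mul, map_one] at h5
    exact zero_ne_one h5
  obtain ⟨xe, hxe, hxg⟩ : ∃ xe : F, xe ≠ g yF ∧
      eval₂ π yF.1 bS + Polynomial.eval₂ π xe hh = π ⟨c₀, hcS⟩ := by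
    by_cases h1 : π ⟨x₁, hx1S⟩ = g yF
    · exact ⟨π ⟨x₂, hx2S⟩, fun h2 => hx12F (h1.trans h2.symm), hyb.2⟩
    · exact ⟨π ⟨x₁, hx1S⟩, h1, hyb.1⟩
  let Φ : Option V0 → Vc := fun o => match o with
    | none => ⟨Function.update yF.1 i0 xe, mk yF xe hxg⟩
    | some v => ⟨Function.update v.1 i0 (g v), mk v (g v) (hg v)⟩
  have hback : ∀ (v w : V0) (x x' : F), Function.update v.1 i0 x = Function.update w.1 i0 x' →
      v = w ∧ x = x' := by
    intro v w x x' heq
    constructor
    · apply Subtype.ext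
      funext i
      by_cases hi : i = i0
      · rw [hi]
        exact v.2.2.1.trans w.2.2.1.symm
      · have := congrFun heq i
        rwa [Function.update_of_ne hi, Function.update_of_ne hi] at this
    · have := congrFun heq i0
      simpa using this
  have hΦ : Function.Injective Φ := by
    intro o o' heq
    rcases o with _ | v <;> rcases o' with _ | w
    · rfl
    · exfalso
      obtain ⟨h1, h2⟩ := hback yF w xe (g w) (congrArg Subtype.val heq)
      rw [← h1] at h2
      exact hxe h2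
    · exfalso
      obtain ⟨h1, h2⟩ := hback v yF (g v) xe (congrArg Subtype.val heq)
      rw [h1] at h2
      exact hxe h2.symm
    · obtain ⟨h1, -⟩ := hback v w (g v) (g w) (congrArg Subtype.val heq)
      rw [h1]
  have hcard := Nat.card_le_card_of_injective Φ hΦ
  rw [Finite.card_option, htot] at hcard
  omega

end Fv

open Ex in
/-- A stable coordinate `∑ j ∈ Z, a j * x j + b + h (x i₀)` such that `b` takes only finitely many
values on the common zeros of the `a j` is a coordinate. -/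
theorem coord_of_uni2 {σ : Type} [Fintype σ] [DecidableEq σ] (Z : Finset σ)
    (a : σ → MvPolynomial σ ℂ) (b : MvPolynomial σ ℂ) (i0 : σ) (hi0 : i0 ∉ Z)
    (h : Polynomial ℂ) (ha : ∀ j ∈ Z, Disjoint (a j).vars (insert i0 Z))
    (hb : Disjoint b.vars (insert i0 Z))
    (hfin : ((fun v : σ → ℂ => eval v b) '' {v | ∀ j ∈ Z, eval v (a j) = 0}).Finite)
    (hs : IsStableCoordinate (∑ j ∈ Z, a j * X j + (b + Polynomial.aeval (X i0) h))) :
    IsCoordinate (∑ j ∈ Z, a j * X j + (b + Polynomial.aeval (X i0) h)) := by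
  have ha' : ∀ j ∈ Z, i0 ∉ (a j).vars := fun j hj hi =>
    Finset.disjoint_left.mp (ha j hj) hi (Finset.mem_insert_self _ _)
  have hb' : i0 ∉ b.vars := fun hi =>
    Finset.disjoint_left.mp hb hi (Finset.mem_insert_self _ _)
  have haZ : ∀ j ∈ Z, Disjoint (a j).vars Z := fun j hj =>
    Finset.disjoint_of_subset_right (Finset.subset_insert _ _) (ha j hj)
  have hBZ : Disjoint (b + Polynomial.aeval (X i0 : MvPolynomial σ ℂ) h).vars Z := by
    rw [Finset.disjoint_left]
    intro i hi hZ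
    rcases Finset.mem_union.mp (vars_add_subset _ _ hi) with h1 | h1
    · exact Finset.disjoint_left.mp hb h1 (Finset.mem_insert_of_mem hZ)
    · have : i = i0 := vars_uni i0 h h1
      rw [this] at hZ
      exact hi0 hZ
  by_cases hd : 2 ≤ h.natDegree
  · apply mainL Z a _ haZ hBZ 0 _ hs
    intro v hv _
    apply Fv.no_ext Z a b i0 hi0 h hd ha hb hBZ hfin hs
      (fun i => if i ∈ insert i0 Z then 0 else v i)
    · intro j hj
      rw [if_pos (Finset.mem_insert_of_mem hj)]
    · rw [if_pos (Finset.mem_insert_self _ _)]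
    · intro j hj
      rw [← hv j hj]
      apply eval_congr_vars
      intro i hi
      rw [if_neg (fun h => Finset.disjoint_left.mp (ha j hj) hi h)]
  · push Not at hd
    obtain ⟨α, β, hαβ⟩ := Polynomial.exists_eq_X_add_C_of_natDegree_le_one (p := h) (by omega)
    by_cases hα : α = 0
    · obtain ⟨c, hc⟩ := (Set.Finite.infinite_compl (hfin.image (fun t => t + β))).nonempty
      apply mainL Z a _ haZ hBZ c _ hs
      intro v hv hvc
      apply hc
      refine ⟨eval v b, ⟨v, hv, rfl⟩, ?_⟩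
      rw [← hvc, map_add, eval_uni, hαβ, hα]
      simp
    · apply isCoordinate_of_pderiv hα (i := i0)
      rw [map_add, map_add, map_sum, pderiv_eq_zero_of_notMem_vars hb', zero_add, hαβ]
      rw [Finset.sum_eq_zero]
      · simp
      · intro j hj
        have hne : j ≠ i0 := by
          rintro rfl
          exact hi0 hj
        rw [pderiv_mul, pderiv_eq_zero_of_notMem_vars (ha' j hj), pderiv_X_of_ne hne]
        simp

end Vale.Agent.P295.L
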