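import Mathlib

/-! P295, row RF: the zeros of the reduction of a system with finitely many complex zeros. -/

namespace Vale.Agent.P295.L

open MvPolynomial

namespace RedFin

theorem rad {σ ι : Type} [Fintype σ] [Fintype ι] (q : ι → MvPolynomial σ ℂ)
    (X₀ : Finset (σ → ℂ)) (hX : ∀ v, (∀ i, eval v (q i) = 0) → v ∈ X₀) (κ : X₀ → σ) :
    ∃ (N : ℕ) (u : ι → MvPolynomial σ ℂ),
      (∏ p : X₀, (X (κ p) - C ((p : σ → ℂ) (κ p)))) ^ N = ∑ i, u i * q i := by
  classical
  have h1 : (∏ p : X₀, (X (κ p) - C ((p : σ → ℂ) (κ p))) : MvPolynomial σ ℂ) ∈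
      (Ideal.span (Set.range q)).radical := by
    rw [← vanishingIdeal_zeroLocus_eq_radical (K := ℂ), mem_vanishingIdeal_iff]
    intro v hv
    have hv' : ∀ i, eval v (q i) = 0 := by
      intro i
      have h2 := (mem_zeroLocus_iff.mp hv) (q i) (Ideal.subset_span ⟨i, rfl⟩)
      simpa [aeval_eq_eval] using h2
    rw [map_prod]
    refine Finset.prod_eq_zero (Finset.mem_univ (⟨v, hX v hv'⟩ : X₀)) ?_
    simp
  obtain ⟨N, hN⟩ := Ideal.mem_radical_iff.mp h1
  obtain ⟨u, hu⟩ := Ideal.mem_span_range_iff_exists_fun.1 hN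
  exact ⟨N, u, hu.symm⟩

end RedFin

/-- [RF] RedFin.lean -/
theorem redfin {σ ι : Type} [Fintype σ] [Fintype ι] (q : ι → MvPolynomial σ ℂ)
    (X : Finset (σ → ℂ)) (hX : ∀ v, (∀ i, eval v (q i) = 0) → v ∈ X) :
    ∃ T : Finset ℂ, ∀ (S : Subring ℂ), (T : Set ℂ) ⊆ S → ∀ (F : Type) [Field F]
      (π : S →+* F) (qS : ι → MvPolynomial σ S),
      (∀ i, MvPolynomial.map S.subtype (qS i) = q i) →
      ∀ v : σ → F, (∀ i, eval₂ π v (qS i) = 0) →
        ∃ y : σ → S, (fun i => (y i : ℂ)) ∈ X ∧ ∀ i, v i = π (y i) := by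
  classical
  choose N u hu using RedFin.rad q X hX
  refine ⟨(X.biUnion fun p => Finset.univ.image p) ∪
    Finset.univ.biUnion fun κ : X → σ => Finset.univ.biUnion fun i => (u κ i).coeffs, ?_⟩
  intro S hT F _ π qS hq v hv
  have hcoord : ∀ p ∈ X, ∀ i, p i ∈ S := by
    intro p hp i
    have : p i ∈ (S : Set ℂ) := hT (by
      rw [Finset.mem_coe, Finset.mem_union, Finset.mem_biUnion]
      exact Or.inl ⟨p, hp, Finset.mem_image_of_mem _ (Finset.mem_univ _)⟩)
    exact this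
  have hlift : ∀ (κ : X → σ) i, ∃ w : MvPolynomial σ S, map S.subtype w = u κ i := by
    intro κ i
    refine mem_range_map_iff_coeffs_subset.2 ?_
    intro x hx
    have : x ∈ (S : Set ℂ) := hT (by
      rw [Finset.mem_coe, Finset.mem_union]
      refine Or.inr (Finset.mem_biUnion.2 ⟨κ, Finset.mem_univ _, ?_⟩)
      exact Finset.mem_biUnion.2 ⟨i, Finset.mem_univ _, Finset.mem_coe.1 hx⟩)
    exact ⟨⟨x, this⟩, rfl⟩
  choose w hw using hlift
  let y : X → σ → S := fun p i => ⟨(p : σ → ℂ) i, hcoord p p.2 i⟩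
  by_contra hcon
  push Not at hcon
  have hne : ∀ p : X, ∃ i, v i ≠ π (y p i) := fun p => hcon (y p) p.2
  choose κ hκ using hne
  have hinj : Function.Injective (map S.subtype : MvPolynomial σ S → MvPolynomial σ ℂ) :=
    map_injective _ S.subtype_injective
  have hid : (∏ p : X, (MvPolynomial.X (κ p) - C (y p (κ p)))) ^ N κ =
      ∑ i, w κ i * qS i := by
    apply hinj
    rw [map_pow, map_prod, map_sum]
    simp only [map_sub, map_X, map_C, map_mul, hw, hq]
    exact hu κ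
  have h2 := congrArg (eval₂Hom π v) hid
  rw [map_pow, map_prod, map_sum] at h2
  have h3 : ∑ i, (eval₂Hom π v) (w κ i * qS i) = 0 := by
    refine Finset.sum_eq_zero fun i _ => ?_
    rw [map_mul]
    have : (eval₂Hom π v) (qS i) = 0 := hv i
    rw [this, mul_zero]
  rw [h3] at h2
  rcases Nat.eq_zero_or_pos (N κ) with h0 | hpos
  · rw [h0, pow_zero] at h2
    exact one_ne_zero h2
  · have h5 := eq_zero_of_pow_eq_zero h2
    obtain ⟨p, _, hp⟩ := Finset.prod_eq_zero_iff.1 h5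
    apply hκ p
    simpa [sub_eq_zero] using hp

end Vale.Agent.P295.L
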