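import Vale.Agent.P295.L.Main
import Vale.Agent.P295.L.Count2
import Vale.Agent.P295.L.RedFin

/-!
# P295: fibres of stable coordinates which are linear in a group of variables
-/

namespace Vale.Agent.P295.L

open MvPolynomial

/-- the fibres of `b` on the common zeros of the coefficients (the variables of `Z` are
normalised to be zero) -/
def Fib {σ : Type} (Z : Finset σ) (a : σ → MvPolynomial σ ℂ) (b : MvPolynomial σ ℂ) (c : ℂ) :
    Set (σ → ℂ) :=
  {v | (∀ j ∈ Z, v j = 0) ∧ (∀ j ∈ Z, eval v (a j) = 0) ∧ eval v b = c}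

theorem fib_le {σ : Type} [Fintype σ] (Z : Finset σ) (a : σ → MvPolynomial σ ℂ)
    (b : MvPolynomial σ ℂ) (ha : ∀ j ∈ Z, Disjoint (a j).vars Z) (hb : Disjoint b.vars Z)
    (hs : IsStableCoordinate (∑ j ∈ Z, a j * X j + b)) (c₁ c₂ : ℂ) (A W : Finset (σ → ℂ))
    (hA : ∀ v, v ∈ Fib Z a b c₁ → v ∈ A) (hW : ∀ v ∈ W, v ∈ Fib Z a b c₂) :
    W.card ≤ A.card := by
  classical
  obtain ⟨T, hT⟩ := equi _ hs
  obtain ⟨T2, hT2⟩ := redfin (ι := Option (σ ⊕ σ))
    (fun j => j.elim (b - C c₁) (Sum.elim (fun j => if j ∈ Z then X j else 0)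
      (fun j => if j ∈ Z then a j else 0))) A (by
    intro v hv
    apply hA
    refine ⟨fun j hj => ?_, fun j hj => ?_, ?_⟩
    · simpa [hj] using hv (some (Sum.inl j))
    · simpa [hj] using hv (some (Sum.inr j))
    · simpa [sub_eq_zero] using hv none)
  obtain ⟨S, F, iF, iFin, π, hS⟩ := spec (T ∪ T2 ∪ (Finset.univ.biUnion fun j => (a j).coeffs) ∪
    b.coeffs ∪ (W.biUnion fun v => Finset.univ.image v) ∪
    ((W ×ˢ W).biUnion fun vw => Finset.univ.image fun i => (vw.1 i - vw.2 i)⁻¹) ∪ {c₁} ∪ {c₂})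
  simp only [Finset.coe_union, Set.union_subset_iff] at hS
  obtain ⟨⟨⟨⟨⟨⟨⟨hS1, hS2⟩, hS3⟩, hS4⟩, hS5⟩, hS6⟩, hS7⟩, hS8⟩ := hS
  have hla : ∀ j, ∃ q : MvPolynomial σ S, MvPolynomial.map S.subtype q = a j := fun j =>
    Mn.lift S _ (fun x hx => hS3 (by
      simp only [Finset.coe_biUnion, Set.mem_iUnion]
      exact ⟨j, by simp, hx⟩))
  obtain ⟨bS, hbS⟩ := Mn.lift S b hS4
  choose aS haS using hla
  have hWS : ∀ v ∈ W, ∀ i, v i ∈ S := fun v hv i => hS5 (by
    simp only [Finset.coe_biUnion, Set.mem_iUnion]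
    exact ⟨v, hv, by simp⟩)
  have hWI : ∀ v ∈ W, ∀ w ∈ W, ∀ i, (v i - w i)⁻¹ ∈ S := fun v hv w hw i => hS6 (by
    simp only [Finset.coe_biUnion, Set.mem_iUnion]
    exact ⟨(v, w), by simp [hv, hw], by simp⟩)
  have hc1 : c₁ ∈ S := hS7 (by simp)
  have hc2 : c₂ ∈ S := hS8 (by simp)
  have hN : ∀ c : F, Nat.card {v : σ → F // ∑ j ∈ Z, (if j ∈ Z then eval₂ π v (aS j) else 0) * v j +
      eval₂ π v bS = c} * Nat.card F = Nat.card F ^ Fintype.card σ := by
    intro c
    have h := hT S hS1 F π (∑ j ∈ Z, aS j * X j + bS) (by simp [haS, hbS]) c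
    rw [← h]
    congr 1
    apply Nat.card_congr
    apply Equiv.subtypeEquivRight
    intro v
    have h1 : eval₂ π v (∑ j ∈ Z, aS j * X j + bS) =
        ∑ j ∈ Z, (if j ∈ Z then eval₂ π v (aS j) else 0) * v j + eval₂ π v bS := by
      rw [← coe_eval₂Hom, map_add, map_sum]
      congr 1
      refine Finset.sum_congr rfl fun j hj => ?_
      simp [hj]
    rw [h1]
  have hcount := count2 Z (fun j v => if j ∈ Z then eval₂ π v (aS j) else 0)
    (fun v => eval₂ π v bS)
    (by
      intro j v w hvw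
      split_ifs with hj
      · exact Mn.eval_congr S π Z (a j) (ha j hj) _ (haS j) v w hvw
      · rfl)
    (fun v w hvw => Mn.eval_congr S π Z b hb _ hbS v w hvw) (π ⟨c₁, hc1⟩) (π ⟨c₂, hc2⟩)
    (hN _) (hN _)
  -- the reduction map
  let ρ : (σ → ℂ) → (σ → F) := fun p =>
    if h : ∀ i, p i ∈ S then fun i => π ⟨p i, h i⟩ else fun _ => 0
  have hρ : ∀ y : σ → S, ρ (fun i => (y i : ℂ)) = fun i => π (y i) := by
    intro y
    have : ∀ i, (y i : ℂ) ∈ S := fun i => (y i).2
    simp only [ρ, dif_pos this]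
  have hup : Nat.card {v : σ → F // (∀ j ∈ Z, v j = 0) ∧
      (∀ j ∈ Z, (if j ∈ Z then eval₂ π v (aS j) else 0) = 0) ∧ eval₂ π v bS = π ⟨c₁, hc1⟩} ≤
      A.card := by
    have h1 : {v : σ → F | (∀ j ∈ Z, v j = 0) ∧
        (∀ j ∈ Z, (if j ∈ Z then eval₂ π v (aS j) else 0) = 0) ∧
        eval₂ π v bS = π ⟨c₁, hc1⟩} ⊆ ((A.image ρ : Finset (σ → F)) : Set (σ → F)) := by
      intro v hv
      obtain ⟨h1, h2, h3⟩ := hv
      obtain ⟨y, hyA, hyv⟩ := hT2 S hS2 F π (fun j => j.elim (bS - C ⟨c₁, hc1⟩)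
        (Sum.elim (fun j => if j ∈ Z then X j else 0) (fun j => if j ∈ Z then aS j else 0))) (by
          intro i
          rcases i with _ | i | i
          · simp [hbS]
          · simp only [Option.elim_some, Sum.elim_inl]
            split_ifs <;> simp
          · simp only [Option.elim_some, Sum.elim_inr]
            split_ifs
            · exact haS i
            · simp) v (by
          intro i
          rcases i with _ | i | i
          · simp only [Option.elim_none]
            rw [← coe_eval₂Hom, map_sub]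
            simp [h3]
          · simp only [Option.elim_some, Sum.elim_inl]
            split_ifs with hi
            · simp [h1 i hi]
            · simp
          · simp only [Option.elim_some, Sum.elim_inr]
            split_ifs with hi
            · have := h2 i hi
              simpa [hi] using this
            · simp)
      rw [Finset.coe_image]
      refine ⟨_, hyA, ?_⟩
      rw [hρ]
      funext i
      exact (hyv i).symm
    calc _ ≤ ((A.image ρ : Finset (σ → F)) : Set (σ → F)).ncard :=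
          Set.ncard_le_ncard h1 (Finset.finite_toSet _)
      _ = (A.image ρ).card := Set.ncard_coe_finset _
      _ ≤ A.card := Finset.card_image_le
  have hlow : W.card ≤ Nat.card {v : σ → F // (∀ j ∈ Z, v j = 0) ∧
      (∀ j ∈ Z, (if j ∈ Z then eval₂ π v (aS j) else 0) = 0) ∧
      eval₂ π v bS = π ⟨c₂, hc2⟩} := by
    have hinj : Set.InjOn ρ (W : Set (σ → ℂ)) := by
      intro v hv w hw hvw
      by_contra hne
      obtain ⟨i, hi⟩ := Function.ne_iff.mp hne
      have h1 : ∀ i, v i ∈ S := hWS v hv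
      have h2 : ∀ i, w i ∈ S := hWS w hw
      have h3 := congrFun hvw i
      simp only [ρ, dif_pos h1, dif_pos h2] at h3
      have h4 : ((⟨v i, h1 i⟩ : S) - ⟨w i, h2 i⟩) * ⟨(v i - w i)⁻¹, hWI v hv w hw i⟩ = 1 := by
        apply Subtype.coe_injective
        change (v i - w i) * (v i - w i)⁻¹ = 1
        exact mul_inv_cancel₀ (sub_ne_zero.mpr hi)
      have h5 := congrArg π h4
      rw [map_mul, map_sub, h3, sub_self, zero_mul, map_one] at h5
      exact zero_ne_one h5
    have h1 : ((W.image ρ : Finset (σ → F)) : Set (σ → F)) ⊆ {v : σ → F | (∀ j ∈ Z, v j = 0) ∧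
        (∀ j ∈ Z, (if j ∈ Z then eval₂ π v (aS j) else 0) = 0) ∧
        eval₂ π v bS = π ⟨c₂, hc2⟩} := by
      intro v hv
      rw [Finset.coe_image] at hv
      obtain ⟨p, hp, rfl⟩ := hv
      obtain ⟨g1, g2, g3⟩ := hW p hp
      have hpS : ∀ i, p i ∈ S := hWS p hp
      have h4 : ρ p = fun i => π ⟨p i, hpS i⟩ := by simp only [ρ, dif_pos hpS]
      rw [h4]
      refine ⟨fun j hj => ?_, fun j hj => ?_, ?_⟩
      · have : (⟨p j, hpS j⟩ : S) = 0 := Subtype.coe_injective (g1 j hj)
        simp only [this, map_zero]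
      · simp only [hj, if_true]
        exact Mn.eval_point S π (a j) (aS j) (haS j) (fun i => ⟨p i, hpS i⟩) (g2 j hj)
      · have := Mn.eval_point S π (b - C c₂) (bS - C ⟨c₂, hc2⟩) (by simp [hbS])
          (fun i => ⟨p i, hpS i⟩) (by simpa [sub_eq_zero] using g3)
        rw [← coe_eval₂Hom, map_sub] at this
        simpa [sub_eq_zero] using this
    calc W.card = (W.image ρ).card := (Finset.card_image_of_injOn hinj).symm
      _ = ((W.image ρ : Finset (σ → F)) : Set (σ → F)).ncard := (Set.ncard_coe_finset _).symm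
      _ ≤ _ := Set.ncard_le_ncard h1 (Set.toFinite _)
  exact hlow.trans (hcount ▸ hup)

theorem fib_encard {σ : Type} [Fintype σ] (Z : Finset σ) (a : σ → MvPolynomial σ ℂ)
    (b : MvPolynomial σ ℂ) (ha : ∀ j ∈ Z, Disjoint (a j).vars Z) (hb : Disjoint b.vars Z)
    (hs : IsStableCoordinate (∑ j ∈ Z, a j * X j + b)) (c₁ c₂ : ℂ) :
    (Fib Z a b c₁).encard = (Fib Z a b c₂).encard := by
  have key : ∀ c₁ c₂ : ℂ, (Fib Z a b c₂).encard ≤ (Fib Z a b c₁).encard := by
    intro c₁ c₂
    by_cases hfin : (Fib Z a b c₁).Finite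
    · by_contra hlt
      rw [not_le] at hlt
      have h1 : (Fib Z a b c₁).encard = (hfin.toFinset.card : ℕ∞) := by
        rw [← Set.encard_coe_eq_coe_finsetCard]
        congr 1
        exact hfin.coe_toFinset.symm
      have h2 : ((hfin.toFinset.card + 1 : ℕ) : ℕ∞) ≤ (Fib Z a b c₂).encard := by
        rw [h1] at hlt
        push_cast
        exact Order.add_one_le_of_lt hlt
      obtain ⟨W, hW, hWc⟩ := Set.exists_subset_encard_eq h2
      have hWf : W.Finite := Set.finite_of_encard_eq_coe hWc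
      have h3 := fib_le Z a b ha hb hs c₁ c₂ hfin.toFinset hWf.toFinset
        (fun v hv => hfin.mem_toFinset.mpr hv) (fun v hv => hW (hWf.mem_toFinset.mp hv))
      have h4 : ((hWf.toFinset.card : ℕ) : ℕ∞) = ((hfin.toFinset.card + 1 : ℕ) : ℕ∞) := by
        rw [← hWc, ← Set.encard_coe_eq_coe_finsetCard]
        congr 1
        exact hWf.coe_toFinset
      have h5 : hWf.toFinset.card = hfin.toFinset.card + 1 := by exact_mod_cast h4
      omega
    · rw [Set.Infinite.encard_eq hfin]
      exact le_top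
  exact le_antisymm (key c₂ c₁) (key c₁ c₂)

end Vale.Agent.P295.L
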