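import Mathlib

/-! P295, row R: reduction of finitely many complex numbers to a finite field. -/

namespace Vale.Agent.P295.L

namespace Red

theorem int_jacobson : IsJacobsonRing ℤ := by
  rw [isJacobsonRing_iff_prime_eq]
  intro P hP
  by_cases h0 : P = ⊥
  · subst h0
    refine le_antisymm (fun x hx => ?_) Ideal.le_jacobson
    rw [Ideal.mem_jacobson_bot] at hx
    have h1 := hx x
    rw [Int.isUnit_iff] at h1
    rw [Ideal.mem_bot]
    rcases h1 with h1 | h1
    · have : x * x = 0 := by linarith
      exact mul_self_eq_zero.1 this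
    · have := mul_self_nonneg x
      linarith
  · have := hP.isMaximal h0
    exact Ideal.jacobson_eq_self_of_isMaximal

/-- a field which is finitely generated as a ring is finite -/
theorem finite_field (F : Type) [Field F] (f : ℤ →+* F) (hf : f.FiniteType) : Finite F := by
  have := int_jacobson
  have he : f = algebraMap ℤ F := Subsingleton.elim _ _
  rw [he] at hf
  have hft : Algebra.FiniteType ℤ F := RingHom.finiteType_algebraMap.1 hf
  have hfin : Module.Finite ℤ F := finite_of_finite_type_of_isJacobsonRing ℤ F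
  have hint : Algebra.IsIntegral ℤ F := Algebra.IsIntegral.of_finite ℤ F
  have hninj : ¬ Function.Injective (algebraMap ℤ F) := by
    intro h
    exact Int.not_isField (isField_of_isIntegral_of_isField h (Field.toIsField F))
  rw [injective_iff_map_eq_zero] at hninj
  push Not at hninj
  obtain ⟨n, hn, hn0⟩ := hninj
  apply Module.finite_of_fg_torsion F
  intro x
  refine ⟨⟨n, mem_nonZeroDivisors_of_ne_zero hn0⟩, ?_⟩
  change n • x = 0
  rw [Algebra.smul_def, hn, zero_mul]

end Red

/-- [R] Red.lean -/
theorem spec (T : Finset ℂ) : ∃ (S : Subring ℂ) (F : Type) (_ : Field F) (_ : Finite F)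
    (_ : S →+* F), (T : Set ℂ) ⊆ S := by
  let S0 : Subalgebra ℤ ℂ := Algebra.adjoin ℤ (T : Set ℂ)
  have hft : Algebra.FiniteType ℤ S0 := by
    rw [← Subalgebra.fg_iff_finiteType]
    exact ⟨T, rfl⟩
  obtain ⟨m, hm⟩ := Ideal.exists_maximal S0
  let _ : Field (S0 ⧸ m) := Ideal.Quotient.field m
  have h2 : Algebra.FiniteType ℤ (S0 ⧸ m) :=
    Algebra.FiniteType.of_surjective (Ideal.Quotient.mkₐ ℤ m) (Ideal.Quotient.mkₐ_surjective ℤ m)
  have h3 : Finite (S0 ⧸ m) := Red.finite_field (S0 ⧸ m) _ (RingHom.finiteType_algebraMap.2 h2)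
  refine ⟨S0.toSubring, S0 ⧸ m, inferInstance, h3,
    (Ideal.Quotient.mk m).comp ((S0.toSubring.subtype).codRestrict S0 (fun x => x.2)), ?_⟩
  exact Algebra.subset_adjoin

end Vale.Agent.P295.L
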