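import Vale.Agent.P295.L.Unim
import Vale.Agent.P295.Core2
import Vale.Agent.P295.L.Red
import Vale.Agent.P295.L.Equi
import Vale.Agent.P295.L.Count

/-!
# P295: stable coordinates which are linear in a group of variables
-/

namespace Vale.Agent.P295.L

open MvPolynomial

namespace Mn

theorem lift {σ : Type} (S : Subring ℂ) (p : MvPolynomial σ ℂ) (h : (p.coeffs : Set ℂ) ⊆ S) :
    ∃ q : MvPolynomial σ S, MvPolynomial.map S.subtype q = p := by
  have := (mem_range_map_iff_coeffs_subset (f := S.subtype) (x := p)).mpr (by simpa using h)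
  exact this

theorem map_inj {σ : Type} (S : Subring ℂ) :
    Function.Injective (MvPolynomial.map (σ := σ) S.subtype) :=
  MvPolynomial.map_injective _ (Subtype.coe_injective)

theorem eval_congr {σ : Type} (S : Subring ℂ) {F : Type} [Field F] (π : S →+* F)
    (Z : Finset σ) (p : MvPolynomial σ ℂ) (hp : Disjoint p.vars Z) (q : MvPolynomial σ S)
    (hq : MvPolynomial.map S.subtype q = p) (v w : σ → F) (h : ∀ i ∉ Z, v i = w i) :
    eval₂ π v q = eval₂ π w q := by
  have hv : q.vars = p.vars := by
    rw [← hq, MvPolynomial.vars_map_of_injective _ (Subtype.coe_injective)]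
  have := MvPolynomial.hom_congr_vars (f₁ := eval₂Hom π v) (f₂ := eval₂Hom π w) (p₁ := q)
    (p₂ := q) (by ext; simp)
    (by
      intro i hi _
      simp only [eval₂Hom_X']
      apply h
      rw [hv] at hi
      exact fun hZ => Finset.disjoint_left.mp hp hi hZ) rfl
  exact this

theorem eval_point {σ : Type} (S : Subring ℂ) {F : Type} [Field F] (π : S →+* F)
    (p : MvPolynomial σ ℂ) (q : MvPolynomial σ S)
    (hq : MvPolynomial.map S.subtype q = p) (y : σ → S) (h : eval (fun i => (y i : ℂ)) p = 0) :
    eval₂ π (fun i => π (y i)) q = 0 := by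
  have h1 : eval y q = 0 := by
    apply Subtype.coe_injective
    change S.subtype (eval y q) = S.subtype 0
    rw [map_zero, ← h, ← hq, MvPolynomial.eval_map]
    change S.subtype (eval₂ (RingHom.id _) y q) = _
    rw [MvPolynomial.eval₂_comp_left]
    rfl
  have h2 := MvPolynomial.eval₂_comp_left π (RingHom.id S) y q
  change π (eval y q) = _ at h2
  rw [h1, map_zero] at h2
  rw [RingHom.comp_id] at h2
  exact h2.symm

/-- Nullstellensatz for a finite family of polynomials. -/
theorem no_zero {σ ι : Type} [Fintype σ] [Fintype ι] (q : ι → MvPolynomial σ ℂ)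
    (h : ∀ x : σ → ℂ, ∃ j, eval x (q j) ≠ 0) :
    ∃ c : ι → MvPolynomial σ ℂ, ∑ j, c j * q j = 1 := by
  classical
  have h1 : vanishingIdeal ℂ (zeroLocus ℂ (Ideal.span (Set.range q))) =
      (Ideal.span (Set.range q)).radical := vanishingIdeal_zeroLocus_eq_radical _
  have h2 : zeroLocus ℂ (Ideal.span (Set.range q)) = ∅ := by
    ext x
    simp only [Set.mem_empty_iff_false, iff_false]
    intro hx
    obtain ⟨j, hj⟩ := h x
    exact hj (hx (q j) (Ideal.subset_span ⟨j, rfl⟩))
  rw [h2] at h1
  have h3 : (1 : MvPolynomial σ ℂ) ∈ (Ideal.span (Set.range q)).radical := by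
    rw [← h1]
    intro x hx
    exact absurd hx (Set.notMem_empty x)
  obtain ⟨n, hn⟩ := h3
  rw [one_pow] at hn
  exact (Ideal.mem_span_range_iff_exists_fun).1 hn

end Mn

/-- The main theorem: a stable coordinate which is linear in the variables of `Z` is a coordinate
as soon as `b` omits a value on the common zeros of the coefficients `a j`. -/
theorem mainL {σ : Type} [Fintype σ] (Z : Finset σ) (a : σ → MvPolynomial σ ℂ)
    (b : MvPolynomial σ ℂ) (ha : ∀ j ∈ Z, Disjoint (a j).vars Z) (hb : Disjoint b.vars Z)
    (c₀ : ℂ) (hc₀ : ∀ v : σ → ℂ, (∀ j ∈ Z, eval v (a j) = 0) → eval v b ≠ c₀)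
    (hs : IsStableCoordinate (∑ j ∈ Z, a j * X j + b)) :
    IsCoordinate (∑ j ∈ Z, a j * X j + b) := by
  classical
  have hV : ¬ ∃ y : σ → ℂ, ∀ j ∈ Z, eval y (a j) = 0 := by
    rintro ⟨y, hy⟩
    obtain ⟨u, hu⟩ := Mn.no_zero (ι := Option σ)
      (fun j => j.elim (b - C c₀) (fun j => if j ∈ Z then a j else 0)) (by
      intro x
      by_contra hne
      push Not at hne
      apply hc₀ x
      · intro j hj
        simpa [hj] using hne (some j)
      · have := hne none
        simpa [sub_eq_zero] using this)
    rw [Fintype.sum_option] at hu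
    simp only [Option.elim_none, Option.elim_some] at hu
    obtain ⟨T, hT⟩ := equi _ hs
    obtain ⟨S, F, iF, iFin, π, hS⟩ := spec (T ∪ (Finset.univ.biUnion fun j => (a j).coeffs) ∪
      (Finset.univ.biUnion fun j => (u j).coeffs) ∪ b.coeffs ∪ Finset.univ.image y ∪
      {c₀})
    simp only [Finset.coe_union, Set.union_subset_iff] at hS
    obtain ⟨⟨⟨⟨⟨hS1, hS2⟩, hS3⟩, hS4⟩, hS5⟩, hS6⟩ := hS
    have hla : ∀ j, ∃ q : MvPolynomial σ S, MvPolynomial.map S.subtype q = a j := fun j =>
      Mn.lift S _ (fun x hx => hS2 (by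
        simp only [Finset.coe_biUnion, Set.mem_iUnion]
        exact ⟨j, by simp, hx⟩))
    have hlu : ∀ j, ∃ q : MvPolynomial σ S, MvPolynomial.map S.subtype q = u j := fun j =>
      Mn.lift S _ (fun x hx => hS3 (by
        simp only [Finset.coe_biUnion, Set.mem_iUnion]
        exact ⟨j, by simp, hx⟩))
    obtain ⟨bS, hbS⟩ := Mn.lift S b hS4
    choose aS haS using hla
    choose uS huS using hlu
    have hyS : ∀ i, y i ∈ S := fun i => hS5 (by simp)
    have hcS : c₀ ∈ S := hS6 (by simp)
    have hid : uS none * (bS - C ⟨c₀, hcS⟩) +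
        ∑ j, uS (some j) * (if j ∈ Z then aS j else 0) = 1 := by
      apply Mn.map_inj S
      rw [map_add, map_sum, map_one, ← hu]
      simp only [map_mul, huS, map_sub, hbS, map_C]
      congr 1
      refine Finset.sum_congr rfl fun j _ => ?_
      split_ifs
      · rw [haS]
      · simp
    have hcount := count Z (fun j v => if j ∈ Z then eval₂ π v (aS j) else 0)
      (fun v => eval₂ π v bS)
      (by
        intro j v w hvw
        split_ifs with hj
        · exact Mn.eval_congr S π Z (a j) (ha j hj) _ (haS j) v w hvw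
        · rfl)
      (fun v w hvw => Mn.eval_congr S π Z b hb _ hbS v w hvw) (π ⟨c₀, hcS⟩)
      (by
        intro v hv hcv
        have h := congrArg (eval₂Hom π v) hid
        rw [map_add, map_sum, map_one, map_mul, map_sub] at h
        simp only [coe_eval₂Hom, eval₂_C] at h
        rw [hcv, sub_self, mul_zero, zero_add, Finset.sum_eq_zero] at h
        · exact zero_ne_one h
        · intro j _
          rw [← coe_eval₂Hom, map_mul]
          by_cases hj : j ∈ Z
          · have := hv j hj
            simp only [hj, if_true] at this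
            simp [hj, this]
          · simp [hj])
      (by
        have h := hT S hS1 F π (∑ j ∈ Z, aS j * X j + bS) (by
          simp [haS, hbS]) (π ⟨c₀, hcS⟩)
        rw [← h]
        congr 1
        apply Nat.card_congr
        apply Equiv.subtypeEquivRight
        intro v
        have h1 : eval₂ π v (∑ j ∈ Z, aS j * X j + bS) =
            ∑ j ∈ Z, (if j ∈ Z then eval₂ π v (aS j) else 0) * v j + eval₂ π v bS := by
          rw [← coe_eval₂Hom, map_add, map_sum]
          congr 1
          refine Finset.sum_congr rfl fun j hj => ?_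
          simp [hj]
        rw [h1])
    obtain ⟨j, hj, hne⟩ := hcount (fun i => π ⟨y i, hyS i⟩)
    apply hne
    simp only [hj, if_true]
    exact Mn.eval_point S π (a j) (aS j) (haS j) (fun i => ⟨y i, hyS i⟩) (hy j hj)
  apply coord_of_unim Z a b ha hb
  obtain ⟨u, hu⟩ := Mn.no_zero (fun j => if j ∈ Z then a j else 0) (by
    intro x
    by_contra hne
    push Not at hne
    exact hV ⟨x, fun j hj => by simpa [hj] using hne j⟩)
  refine ⟨u, ?_⟩
  rw [← hu]
  simp

end Vale.Agent.P295.L
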