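import Vale.Agent.P295.QS
import Vale.Agent.P295.Defs

/-!
# P295: polynomials which are linear in a group of variables with unimodular coefficients
-/

namespace Vale.Agent.P295.L

open MvPolynomial Wt

namespace Un

set_option linter.unusedSectionVars false

variable {K : Type} [Field K] {σ : Type} [Fintype σ] [DecidableEq σ]

theorem main2 (w : σ → ℕ) {r m : ℕ} (E0 : {i // w i = 0} ≃ Fin r) {d : ℕ} (hd : 0 < d)
    (Ed : {i // w i = d} ≃ Fin (m + 1)) (p : MvPolynomial σ K)
    (α : Fin (m + 1) → MvPolynomial (Fin r) K) (hα : Unim α) :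
    ∃ (i : σ) (φ : MvPolynomial σ K ≃ₐ[K] MvPolynomial σ K),
      φ (tau w d p + ∑ k, emb w E0 (α k) * X (Ed.symm k).1) = X i := by
  obtain ⟨M, N, h1, h2, h3⟩ := quillen_suslin α hα
  let φ : MvPolynomial σ K ≃ₐ[K] MvPolynomial σ K :=
    AlgEquiv.ofAlgHom (lin E0 Ed M) (lin E0 Ed N) (lin_comp E0 Ed hd M N h1)
      (lin_comp E0 Ed hd N M h2)
  have h0 : w (Ed.symm 0).1 = d := (Ed.symm 0).2
  let θ : MvPolynomial σ K ≃ₐ[K] MvPolynomial σ K :=
    AlgEquiv.ofAlgHom (tr (Ed.symm 0).1 (tau w d (-p))) (tr (Ed.symm 0).1 (tau w d p))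
      (tr_comp _ h0 _ _ (by ring)) (tr_comp _ h0 _ _ (by ring))
  refine ⟨(Ed.symm 0).1, φ.trans θ, ?_⟩
  have h4 : φ (tau w d p + ∑ k, emb w E0 (α k) * X (Ed.symm k).1) =
      tau w d p + X (Ed.symm 0).1 := by
    change lin E0 Ed M _ = _
    rw [map_add, lin_tau, map_sum]
    congr 1
    simp only [map_mul, lin_emb E0 Ed hd, lin_X, Finset.mul_sum]
    rw [Finset.sum_comm]
    have h5 : ∀ y, ∑ x, emb w E0 (α x) *
        (emb w E0 (M y x) * X (Ed.symm y).1) =
        emb w E0 ((Pi.single 0 1 : Fin (m + 1) → MvPolynomial (Fin _) K) y) *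
          X (Ed.symm y).1 := by
      intro y
      rw [← h3, Matrix.mulVec, dotProduct, map_sum, Finset.sum_mul]
      refine Finset.sum_congr rfl fun x _ => ?_
      rw [map_mul]
      ring
    simp only [h5]
    rw [Finset.sum_eq_single 0]
    · simp
    · intro b _ hb
      simp [hb]
    · simp
  change θ (φ _) = _
  rw [h4, map_add]
  change tr (Ed.symm 0).1 (tau w d (-p)) (tau w d p) + tr (Ed.symm 0).1 (tau w d (-p))
    (X (Ed.symm 0).1) = _
  rw [tr_tau _ h0]
  simp [tr]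

theorem tau_of_vars (w : σ → ℕ) (d : ℕ) (p : MvPolynomial σ K) (hp : ∀ i ∈ p.vars, w i ≠ d) :
    tau w d p = p := by
  have := MvPolynomial.hom_congr_vars (f₁ := (tau (K := K) w d).toRingHom)
    (f₂ := RingHom.id (MvPolynomial σ K)) (p₁ := p) (p₂ := p) (by ext; simp [tau])
    (by
      intro i hi _
      simp [tau, hp i hi]) rfl
  exact this

theorem emb_rho_of_vars (w : σ → ℕ) {r : ℕ} (E0 : {i // w i = 0} ≃ Fin r) (p : MvPolynomial σ K)
    (hp : ∀ i ∈ p.vars, w i = 0) : emb w E0 (rho w E0 p) = p := by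
  rw [emb_rho]
  have := MvPolynomial.hom_congr_vars
    (f₁ := (aeval (R := K) (fun i => if w i = 0 then (X i : MvPolynomial σ K) else 0)).toRingHom)
    (f₂ := RingHom.id (MvPolynomial σ K)) (p₁ := p) (p₂ := p) (by ext; simp)
    (by
      intro i hi _
      simp [hp i hi]) rfl
  exact this

end Un

/-- A polynomial which is linear in a group `Z` of variables, with coefficients in the other
variables which generate the unit ideal, is a coordinate. -/
theorem coord_of_unim {σ : Type} [Fintype σ] (Z : Finset σ) (a : σ → MvPolynomial σ ℂ)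
    (b : MvPolynomial σ ℂ) (ha : ∀ j ∈ Z, Disjoint (a j).vars Z) (hb : Disjoint b.vars Z)
    (hu : ∃ u : σ → MvPolynomial σ ℂ, ∑ j ∈ Z, u j * a j = 1) :
    IsCoordinate (∑ j ∈ Z, a j * X j + b) := by
  classical
  obtain ⟨u, hu⟩ := hu
  let w : σ → ℕ := fun i => if i ∈ Z then 1 else 0
  have hw1 : ∀ i, w i = 1 ↔ i ∈ Z := by
    intro i
    simp only [w]
    split_ifs with h <;> simp [h]
  have hw0 : ∀ i, w i = 0 ↔ i ∉ Z := by
    intro i
    simp only [w]
    split_ifs with h <;> simp [h]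
  let E0 := Fintype.equivFin {i // w i = 0}
  have hne : Z.Nonempty := by
    by_contra h
    rw [Finset.not_nonempty_iff_eq_empty] at h
    rw [h] at hu
    simp at hu
  obtain ⟨m, hm⟩ : ∃ m, Fintype.card {i // w i = 1} = m + 1 := by
    obtain ⟨i, hi⟩ := hne
    have : 0 < Fintype.card {i // w i = 1} := Fintype.card_pos_iff.mpr ⟨⟨i, (hw1 i).mpr hi⟩⟩
    exact ⟨_, (Nat.succ_pred_eq_of_pos this).symm⟩
  let Ed : {i // w i = 1} ≃ Fin (m + 1) := Fintype.equivFinOfCardEq hm
  have hsum : ∀ (g : σ → MvPolynomial σ ℂ), ∑ k, g (Ed.symm k).1 = ∑ j ∈ Z, g j := by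
    intro g
    rw [Equiv.sum_comp Ed.symm (fun i => g i.1)]
    exact (Finset.sum_subtype Z (fun x => (hw1 x).symm) g).symm
  have hU : Unim (fun k => rho w E0 (a (Ed.symm k).1)) := by
    refine ⟨fun k => rho w E0 (u (Ed.symm k).1), ?_⟩
    have h := hsum (fun j => u j * a j)
    rw [hu] at h
    have h2 := congrArg (rho w E0) h
    rw [map_sum, map_one] at h2
    simpa using h2
  obtain ⟨i, φ, hφ⟩ := Un.main2 w E0 one_pos Ed b _ hU
  refine ⟨φ, i, ?_⟩
  rw [← hφ]
  congr 1
  rw [add_comm]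
  congr 1
  · rw [Un.tau_of_vars]
    intro i hi h1
    exact Finset.disjoint_left.mp hb hi ((hw1 i).mp h1)
  · rw [← hsum (fun j => a j * X j)]
    refine Finset.sum_congr rfl fun k _ => ?_
    rw [Un.emb_rho_of_vars]
    intro i hi
    rw [hw0]
    exact Finset.disjoint_left.mp (ha _ ((hw1 _).mp (Ed.symm k).2)) hi

end Vale.Agent.P295.L
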